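import Vale.Agent.Lib.P254.RampTh.Main
import Vale.Agent.Lib.P254.Ramp.BodyP

/-!
P254, truncated wedge class: the body

For `0 ≤ th ≤ 1` and a continuous concave profile `R ≥ 0` on `[0,1]`, not identically zero, the
body `{x ∈ ℝ³ | 0 ≤ x₀ ≤ 1, |x₁| ≤ th + (1 - th) x₀, |x₂| ≤ R x₀}` has isotropic constant at
most that of the tetrahedra.  For `th = 0` this is the wedge of `Ramp/Body.lean`, for `th = 1`
it is the body `[0,1] × [-1,1] × {|x₂| ≤ R x₀}`.
-/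

open MeasureTheory Set

namespace Vale.Agent.Lib.P254.RampTh

open Vale.Agent.Lib.P254 Vale.Agent.Lib.P254.Ramp

/-- The truncated wedge with parameter `th` and profile `R`. -/
def twedge (th : ℝ) (R : ℝ → ℝ) : Set (Fin 3 → ℝ) :=
  {x | 0 ≤ x 0 ∧ x 0 ≤ 1 ∧ |x 1| ≤ th + (1 - th) * x 0 ∧ |x 2| ≤ R (x 0)}

theorem twedge_eq (th : ℝ) (R : ℝ → ℝ) : twedge th R = wedgeP (lw th) R := rfl

theorem lw_concaveOn (th : ℝ) : ConcaveOn ℝ (Icc (0:ℝ) 1) (lw th) := by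
  refine ⟨convex_Icc 0 1, fun x _ y _ a b _ _ hab => le_of_eq ?_⟩
  simp only [lw, smul_eq_mul]
  linear_combination th * hab

theorem lw_continuous (th : ℝ) : Continuous (lw th) := by
  unfold lw
  fun_prop

theorem lw_nonneg {th : ℝ} (h0 : 0 ≤ th) (h1 : th ≤ 1) :
    ∀ t ∈ Icc (0:ℝ) 1, 0 ≤ lw th t := by
  intro t ht
  unfold lw
  have h2 : 0 ≤ (1 - th) * t := mul_nonneg (by linarith) ht.1
  linarith

theorem lw_pos_somewhere (th : ℝ) : ∃ t ∈ Icc (0:ℝ) 1, 0 < lw th t := by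
  refine ⟨1, ⟨zero_le_one, le_refl _⟩, ?_⟩
  unfold lw
  norm_num

/-- **The truncated wedge class.** -/
theorem twedge_isotropic_le (th : ℝ) (h0 : 0 ≤ th) (h1 : th ≤ 1) (R : ℝ → ℝ)
    (hc : ConcaveOn ℝ (Icc 0 1) R) (hcont : ContinuousOn R (Icc 0 1))
    (hpos : ∀ t ∈ Icc (0:ℝ) 1, 0 ≤ R t) (hne : ∃ t ∈ Icc (0:ℝ) 1, 0 < R t)
    (T : Fin 4 → Fin 3 → ℝ) (hT : AffineIndependent ℝ T) :
    isotropicConstant (twedge th R) ≤ isotropicConstant (convexHull ℝ (Set.range T)) := by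
  rw [twedge_eq]
  refine wedgeP_isotropic_le_of_ineq (lw th) R (lw_concaveOn th) hc
    (lw_continuous th).continuousOn hcont (lw_nonneg h0 h1) hpos (lw_pos_somewhere th) hne ?_ T hT
  have hM1 : ∫ t in (0:ℝ)..1, t * (lw th t * R t) = tM1 th R := by
    unfold tM1
    exact intervalIntegral.integral_congr (fun t _ => by ring)
  have hM2 : ∫ t in (0:ℝ)..1, t ^ 2 * (lw th t * R t) = tM2 th R := by
    unfold tM2
    exact intervalIntegral.integral_congr (fun t _ => by ring)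
  have hA : ∫ t in (0:ℝ)..1, lw th t * R t = tA th R := rfl
  have hN : ∫ t in (0:ℝ)..1, (lw th t) ^ 2 * R t = tN th R := rfl
  have hS : ∫ t in (0:ℝ)..1, lw th t * (R t) ^ 2 = tS th R := rfl
  rw [hM1, hM2, hA, hN, hS]
  exact rampth_ineq_concave th h0 h1 R hc hpos

end Vale.Agent.Lib.P254.RampTh
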