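import Vale.Agent.Lib.P254.Ramp.Smooth

/-!
# P254, truncated wedge class: definitions for the one-dimensional inequality

Weight `lw th z = th + (1 - th) z` on `[0,1]`, `0 ≤ th ≤ 1`.  For a profile `R`:
`tA = ∫ l R`, `tM1 = ∫ l z R`, `tM2 = ∫ l z² R`, `tS = ∫ l R²`, `tN = ∫ l² R`.
The numbers `tp0`, `tp1` are the end values of the projection of `R` on affine functions in the
space `L²(l dz)`, `tll` is minus the component of `R` along the monic quadratic orthogonal to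
affine functions.  The functions `ka … kD` are the corresponding integrals of the Green kernel.
-/

namespace Vale.Agent.Lib.P254.RampTh

/-- The affine weight. -/
noncomputable def lw (th z : ℝ) : ℝ := th + (1 - th) * z

/-- `∫₀¹ l R`. -/
noncomputable def tA (th : ℝ) (R : ℝ → ℝ) : ℝ := ∫ z in (0:ℝ)..1, lw th z * R z

/-- `∫₀¹ l z R`. -/
noncomputable def tM1 (th : ℝ) (R : ℝ → ℝ) : ℝ := ∫ z in (0:ℝ)..1, lw th z * z * R z

/-- `∫₀¹ l z² R`. -/
noncomputable def tM2 (th : ℝ) (R : ℝ → ℝ) : ℝ := ∫ z in (0:ℝ)..1, lw th z * z ^ 2 * R z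

/-- `∫₀¹ l R²`. -/
noncomputable def tS (th : ℝ) (R : ℝ → ℝ) : ℝ := ∫ z in (0:ℝ)..1, lw th z * (R z) ^ 2

/-- `∫₀¹ l² R`. -/
noncomputable def tN (th : ℝ) (R : ℝ → ℝ) : ℝ := ∫ z in (0:ℝ)..1, (lw th z) ^ 2 * R z

/-- `1 + 4 th + th²`. -/
noncomputable def dth (th : ℝ) : ℝ := 1 + 4 * th + th ^ 2

/-- Value at `0` of the projection of `R` on affine functions. -/
noncomputable def tp0 (th : ℝ) (R : ℝ → ℝ) : ℝ :=
  (6 * (3 + th) * tA th R - 12 * (2 + th) * tM1 th R) / dth th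

/-- Value at `1` of the projection of `R` on affine functions. -/
noncomputable def tp1 (th : ℝ) (R : ℝ → ℝ) : ℝ :=
  6 * (2 * (1 + 2 * th) * tM1 th R - (1 + th) * tA th R) / dth th

/-- Minus the pairing of `R` with the monic quadratic orthogonal to affine functions. -/
noncomputable def tll (th : ℝ) (R : ℝ → ℝ) : ℝ :=
  (4 * (3 + 10 * th + 2 * th ^ 2) * tM1 th R - (3 + 6 * th + th ^ 2) * tA th R
    - 10 * dth th * tM2 th R) / (10 * dth th)

/-- Kernel of `tA`. -/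
noncomputable def ka (th c : ℝ) : ℝ := c * (1 - c) * (1 + c + th * (2 - c)) / 6

/-- Kernel of `tN`. -/
noncomputable def kb (th c : ℝ) : ℝ :=
  c * (1 - c) * ((1 + c + c ^ 2) + 2 * th * (1 + c - c ^ 2) + th ^ 2 * (3 - 3 * c + c ^ 2)) / 12

/-- Kernel of `tll`. -/
noncomputable def kG (th c : ℝ) : ℝ :=
  c ^ 2 * (1 - c) ^ 2 * (c + 3 * th * (1 + c) + 3 * th ^ 2 * (2 - c) + th ^ 3 * (1 - c))
    / (20 * dth th)

/-- Kernel of `tp0`. -/
noncomputable def kP0 (th c : ℝ) : ℝ :=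
  c * (1 - c) ^ 2 * ((1 + 2 * c) + th * (4 - c) + th ^ 2 * (1 - c)) / dth th

/-- Kernel of `tp1`. -/
noncomputable def kP1 (th c : ℝ) : ℝ :=
  c ^ 2 * (1 - c) * (c + th * (3 + c) + th ^ 2 * (3 - 2 * c)) / dth th

/-- Squared distance of the Green kernel to affine functions. -/
noncomputable def kD (th c : ℝ) : ℝ :=
  c ^ 3 * (1 - c) ^ 3 * (c * (1 + 3 * c) + th * (4 + 15 * c - 3 * c ^ 2)
    + th ^ 2 * (16 - 9 * c - 3 * c ^ 2) + th ^ 3 * (1 - c) * (4 - 3 * c)) / (12 * dth th)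

/-- Projection of the Green kernel `Ramp.gk c` on affine functions. -/
noncomputable def tpk (th c z : ℝ) : ℝ := kP0 th c * (1 - z) + kP1 th c * z

end Vale.Agent.Lib.P254.RampTh
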