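import Vale.Agent.Lib.P254.RampTh.Defs

/-!
# P254, truncated wedge class: the one-dimensional inequality

`80 N² S² (A M2 - M1²) ≤ 9 A⁸` for the weight `l z = th + (1 - th) z`, `0 ≤ th ≤ 1`, and every
concave `R ≥ 0` on `[0,1]`.
-/

namespace Vale.Agent.Lib.P254.RampTh

open MeasureTheory intervalIntegral Set Filter Topology
open Vale.Agent.Lib.P254.Ramp

/-! #### section TMOMA -/

/-! ### TMOMA: moment identities for `tA` and `tN` -/

theorem tmoma_ka_fun (th : ℝ) :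
    (fun c : ℝ => ka th c) =
      fun c : ℝ => ((1 + 2 * th) * c - 3 * th * c ^ 2 - (1 - th) * c ^ 3) / 6 := by
  funext c
  unfold ka
  ring

theorem tmoma_ka_d1 (th x : ℝ) :
    HasDerivAt (fun c : ℝ => ka th c)
      (((1 + 2 * th) - 6 * th * x - 3 * (1 - th) * x ^ 2) / 6) x := by
  rw [tmoma_ka_fun]
  have hid := hasDerivAt_id' x
  have h : HasDerivAt
      (fun c : ℝ => ((1 + 2 * th) * c - 3 * th * c ^ 2 - (1 - th) * c ^ 3) / 6) _ x :=
    (((hid.const_mul (1 + 2 * th)).sub ((hid.pow 2).const_mul (3 * th))).sub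
      ((hid.pow 3).const_mul (1 - th))).div_const 6
  refine h.congr_deriv ?_
  simp
  ring

theorem tmoma_ka_d2 (th x : ℝ) :
    HasDerivAt (fun c : ℝ => ((1 + 2 * th) - 6 * th * c - 3 * (1 - th) * c ^ 2) / 6)
      (-(lw th x)) x := by
  have hid := hasDerivAt_id' x
  have h : HasDerivAt
      (fun c : ℝ => ((1 + 2 * th) - 6 * th * c - 3 * (1 - th) * c ^ 2) / 6) _ x :=
    (((hid.const_mul (6 * th)).const_sub (1 + 2 * th)).sub
      ((hid.pow 2).const_mul (3 * (1 - th)))).div_const 6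
  refine h.congr_deriv ?_
  unfold lw
  simp
  ring

theorem tmoma_kb_fun (th : ℝ) :
    (fun c : ℝ => kb th c) =
      fun c : ℝ => ((1 + 2 * th + 3 * th ^ 2) * c - 6 * th ^ 2 * c ^ 2
        - 4 * th * (1 - th) * c ^ 3 - (1 - th) ^ 2 * c ^ 4) / 12 := by
  funext c
  unfold kb
  ring

theorem tmoma_kb_d1 (th x : ℝ) :
    HasDerivAt (fun c : ℝ => kb th c)
      (((1 + 2 * th + 3 * th ^ 2) - 12 * th ^ 2 * x - 12 * th * (1 - th) * x ^ 2
        - 4 * (1 - th) ^ 2 * x ^ 3) / 12) x := by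
  rw [tmoma_kb_fun]
  have hid := hasDerivAt_id' x
  have h : HasDerivAt
      (fun c : ℝ => ((1 + 2 * th + 3 * th ^ 2) * c - 6 * th ^ 2 * c ^ 2
        - 4 * th * (1 - th) * c ^ 3 - (1 - th) ^ 2 * c ^ 4) / 12) _ x :=
    ((((hid.const_mul (1 + 2 * th + 3 * th ^ 2)).sub ((hid.pow 2).const_mul (6 * th ^ 2))).sub
      ((hid.pow 3).const_mul (4 * th * (1 - th)))).sub
      ((hid.pow 4).const_mul ((1 - th) ^ 2))).div_const 12
  refine h.congr_deriv ?_
  simp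
  ring

theorem tmoma_kb_d2 (th x : ℝ) :
    HasDerivAt (fun c : ℝ => ((1 + 2 * th + 3 * th ^ 2) - 12 * th ^ 2 * c
        - 12 * th * (1 - th) * c ^ 2 - 4 * (1 - th) ^ 2 * c ^ 3) / 12)
      (-((lw th x) ^ 2)) x := by
  have hid := hasDerivAt_id' x
  have h : HasDerivAt
      (fun c : ℝ => ((1 + 2 * th + 3 * th ^ 2) - 12 * th ^ 2 * c
        - 12 * th * (1 - th) * c ^ 2 - 4 * (1 - th) ^ 2 * c ^ 3) / 12) _ x :=
    ((((hid.const_mul (12 * th ^ 2)).const_sub (1 + 2 * th + 3 * th ^ 2)).sub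
      ((hid.pow 2).const_mul (12 * th * (1 - th)))).sub
      ((hid.pow 3).const_mul (4 * (1 - th) ^ 2))).div_const 12
  refine h.congr_deriv ?_
  unfold lw
  simp
  ring

theorem tmoma_lw_cont (th : ℝ) : Continuous (fun c : ℝ => lw th c) := by
  unfold lw
  fun_prop

theorem tA_eq (th : ℝ) (R R1 R2 : ℝ → ℝ)
    (hR : ∀ x, HasDerivAt R (R1 x) x) (hR1 : ∀ x, HasDerivAt R1 (R2 x) x)
    (hR2 : Continuous R2) :
    tA th R = R 0 * (1 + 2 * th) / 6 + R 1 * (2 + th) / 6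
      + ∫ c in (0:ℝ)..1, (-(R2 c)) * ka th c := by
  have key := ibp2 R R1 R2 (fun c : ℝ => ka th c)
    (fun c : ℝ => ((1 + 2 * th) - 6 * th * c - 3 * (1 - th) * c ^ 2) / 6)
    (fun c : ℝ => -(lw th c)) hR hR1 hR2
    (tmoma_ka_d1 th) (tmoma_ka_d2 th) (tmoma_lw_cont th).neg
    (by unfold ka; norm_num) (by unfold ka; norm_num)
  have key' : (∫ z in (0:ℝ)..1, R z * (-(-(lw th z)))) =
      R 0 * (((1 + 2 * th) - 6 * th * 0 - 3 * (1 - th) * 0 ^ 2) / 6)
        - R 1 * (((1 + 2 * th) - 6 * th * 1 - 3 * (1 - th) * 1 ^ 2) / 6)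
        + ∫ z in (0:ℝ)..1, (-(R2 z)) * ka th z := key
  have e1 : tA th R = ∫ z in (0:ℝ)..1, R z * (-(-(lw th z))) := by
    unfold tA
    refine intervalIntegral.integral_congr fun z _ => ?_
    show lw th z * R z = R z * (-(-(lw th z)))
    ring
  rw [e1, key']
  ring

theorem tN_eq (th : ℝ) (R R1 R2 : ℝ → ℝ)
    (hR : ∀ x, HasDerivAt R (R1 x) x) (hR1 : ∀ x, HasDerivAt R1 (R2 x) x)
    (hR2 : Continuous R2) :
    tN th R = R 0 * (3 * th ^ 2 + 2 * th + 1) / 12 + R 1 * (th ^ 2 + 2 * th + 3) / 12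
      + ∫ c in (0:ℝ)..1, (-(R2 c)) * kb th c := by
  have key := ibp2 R R1 R2 (fun c : ℝ => kb th c)
    (fun c : ℝ => ((1 + 2 * th + 3 * th ^ 2) - 12 * th ^ 2 * c
        - 12 * th * (1 - th) * c ^ 2 - 4 * (1 - th) ^ 2 * c ^ 3) / 12)
    (fun c : ℝ => -((lw th c) ^ 2)) hR hR1 hR2
    (tmoma_kb_d1 th) (tmoma_kb_d2 th) ((tmoma_lw_cont th).pow 2).neg
    (by unfold kb; norm_num) (by unfold kb; norm_num)
  have key' : (∫ z in (0:ℝ)..1, R z * (-(-((lw th z) ^ 2)))) =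
      R 0 * (((1 + 2 * th + 3 * th ^ 2) - 12 * th ^ 2 * 0
        - 12 * th * (1 - th) * 0 ^ 2 - 4 * (1 - th) ^ 2 * 0 ^ 3) / 12)
        - R 1 * (((1 + 2 * th + 3 * th ^ 2) - 12 * th ^ 2 * 1
        - 12 * th * (1 - th) * 1 ^ 2 - 4 * (1 - th) ^ 2 * 1 ^ 3) / 12)
        + ∫ z in (0:ℝ)..1, (-(R2 z)) * kb th z := key
  have e1 : tN th R = ∫ z in (0:ℝ)..1, R z * (-(-((lw th z) ^ 2))) := by
    unfold tN
    refine intervalIntegral.integral_congr fun z _ => ?_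
    show (lw th z) ^ 2 * R z = R z * (-(-((lw th z) ^ 2)))
    ring
  rw [e1, key']
  ring

/-! #### section TMOMB -/

/-! ### TMOMB: moment identity for `tll` -/

theorem tmomb_n1 (th x : ℝ) :
    HasDerivAt (fun c : ℝ => c ^ 2 * (1 - c) ^ 2
        * (c + 3 * th * (1 + c) + 3 * th ^ 2 * (2 - c) + th ^ 3 * (1 - c)))
      ((5 + 15 * th - 15 * th ^ 2 - 5 * th ^ 3) * x ^ 4
        + (-8 - 12 * th + 48 * th ^ 2 + 12 * th ^ 3) * x ^ 3
        + (3 - 9 * th - 45 * th ^ 2 - 9 * th ^ 3) * x ^ 2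
        + (6 * th + 12 * th ^ 2 + 2 * th ^ 3) * x) x := by
  have hid := hasDerivAt_id' x
  have hf : HasDerivAt
      (fun c : ℝ => c + 3 * th * (1 + c) + 3 * th ^ 2 * (2 - c) + th ^ 3 * (1 - c)) _ x :=
    ((hid.add ((hid.const_add 1).const_mul (3 * th))).add
      ((hid.const_sub 2).const_mul (3 * th ^ 2))).add ((hid.const_sub 1).const_mul (th ^ 3))
  have h : HasDerivAt (fun c : ℝ => c ^ 2 * (1 - c) ^ 2
        * (c + 3 * th * (1 + c) + 3 * th ^ 2 * (2 - c) + th ^ 3 * (1 - c))) _ x :=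
    ((hid.pow 2).mul ((hid.const_sub 1).pow 2)).mul hf
  refine h.congr_deriv ?_
  simp
  ring

theorem tmomb_n2 (th x : ℝ) :
    HasDerivAt (fun c : ℝ => (5 + 15 * th - 15 * th ^ 2 - 5 * th ^ 3) * c ^ 4
        + (-8 - 12 * th + 48 * th ^ 2 + 12 * th ^ 3) * c ^ 3
        + (3 - 9 * th - 45 * th ^ 2 - 9 * th ^ 3) * c ^ 2
        + (6 * th + 12 * th ^ 2 + 2 * th ^ 3) * c)
      (4 * (5 + 15 * th - 15 * th ^ 2 - 5 * th ^ 3) * x ^ 3
        + 3 * (-8 - 12 * th + 48 * th ^ 2 + 12 * th ^ 3) * x ^ 2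
        + 2 * (3 - 9 * th - 45 * th ^ 2 - 9 * th ^ 3) * x
        + (6 * th + 12 * th ^ 2 + 2 * th ^ 3)) x := by
  have hid := hasDerivAt_id' x
  have h : HasDerivAt (fun c : ℝ => (5 + 15 * th - 15 * th ^ 2 - 5 * th ^ 3) * c ^ 4
        + (-8 - 12 * th + 48 * th ^ 2 + 12 * th ^ 3) * c ^ 3
        + (3 - 9 * th - 45 * th ^ 2 - 9 * th ^ 3) * c ^ 2
        + (6 * th + 12 * th ^ 2 + 2 * th ^ 3) * c) _ x :=
    ((((hid.pow 4).const_mul (5 + 15 * th - 15 * th ^ 2 - 5 * th ^ 3)).add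
      ((hid.pow 3).const_mul (-8 - 12 * th + 48 * th ^ 2 + 12 * th ^ 3))).add
      ((hid.pow 2).const_mul (3 - 9 * th - 45 * th ^ 2 - 9 * th ^ 3))).add
      (hid.const_mul (6 * th + 12 * th ^ 2 + 2 * th ^ 3))
  refine h.congr_deriv ?_
  simp
  ring

theorem tmomb_d1 (th x : ℝ) :
    HasDerivAt (kG th)
      (((5 + 15 * th - 15 * th ^ 2 - 5 * th ^ 3) * x ^ 4
        + (-8 - 12 * th + 48 * th ^ 2 + 12 * th ^ 3) * x ^ 3
        + (3 - 9 * th - 45 * th ^ 2 - 9 * th ^ 3) * x ^ 2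
        + (6 * th + 12 * th ^ 2 + 2 * th ^ 3) * x) / (20 * dth th)) x :=
  (tmomb_n1 th x).div_const (20 * dth th)

theorem tmomb_d2 (th x : ℝ) :
    HasDerivAt (fun c : ℝ => ((5 + 15 * th - 15 * th ^ 2 - 5 * th ^ 3) * c ^ 4
        + (-8 - 12 * th + 48 * th ^ 2 + 12 * th ^ 3) * c ^ 3
        + (3 - 9 * th - 45 * th ^ 2 - 9 * th ^ 3) * c ^ 2
        + (6 * th + 12 * th ^ 2 + 2 * th ^ 3) * c) / (20 * dth th))
      ((4 * (5 + 15 * th - 15 * th ^ 2 - 5 * th ^ 3) * x ^ 3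
        + 3 * (-8 - 12 * th + 48 * th ^ 2 + 12 * th ^ 3) * x ^ 2
        + 2 * (3 - 9 * th - 45 * th ^ 2 - 9 * th ^ 3) * x
        + (6 * th + 12 * th ^ 2 + 2 * th ^ 3)) / (20 * dth th)) x :=
  (tmomb_n2 th x).div_const (20 * dth th)

theorem tmomb_pt (th : ℝ) (h0 : 0 ≤ th) (r z : ℝ) :
    r * (-((4 * (5 + 15 * th - 15 * th ^ 2 - 5 * th ^ 3) * z ^ 3
        + 3 * (-8 - 12 * th + 48 * th ^ 2 + 12 * th ^ 3) * z ^ 2
        + 2 * (3 - 9 * th - 45 * th ^ 2 - 9 * th ^ 3) * z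
        + (6 * th + 12 * th ^ 2 + 2 * th ^ 3)) / (20 * dth th)))
      = (4 * (3 + 10 * th + 2 * th ^ 2) * (lw th z * z * r)
          - (3 + 6 * th + th ^ 2) * (lw th z * r)
          - 10 * dth th * (lw th z * z ^ 2 * r)) / (10 * dth th) := by
  unfold lw dth
  have hD : (1 + 4 * th + th ^ 2) ≠ 0 := by positivity
  field_simp
  ring

theorem tll_eq (th : ℝ) (h0 : 0 ≤ th) (R R1 R2 : ℝ → ℝ)
    (hR : ∀ x, HasDerivAt R (R1 x) x) (hR1 : ∀ x, HasDerivAt R1 (R2 x) x)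
    (hR2 : Continuous R2) :
    tll th R = ∫ c in (0:ℝ)..1, (-(R2 c)) * kG th c := by
  have hRc : Continuous R := continuous_iff_continuousAt.mpr fun x => (hR x).continuousAt
  have key := ibp2 R R1 R2 (kG th)
    (fun c : ℝ => ((5 + 15 * th - 15 * th ^ 2 - 5 * th ^ 3) * c ^ 4
        + (-8 - 12 * th + 48 * th ^ 2 + 12 * th ^ 3) * c ^ 3
        + (3 - 9 * th - 45 * th ^ 2 - 9 * th ^ 3) * c ^ 2
        + (6 * th + 12 * th ^ 2 + 2 * th ^ 3) * c) / (20 * dth th))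
    (fun c : ℝ => (4 * (5 + 15 * th - 15 * th ^ 2 - 5 * th ^ 3) * c ^ 3
        + 3 * (-8 - 12 * th + 48 * th ^ 2 + 12 * th ^ 3) * c ^ 2
        + 2 * (3 - 9 * th - 45 * th ^ 2 - 9 * th ^ 3) * c
        + (6 * th + 12 * th ^ 2 + 2 * th ^ 3)) / (20 * dth th)) hR hR1 hR2
    (tmomb_d1 th) (tmomb_d2 th) (by fun_prop) (by simp [kG]) (by simp [kG])
  have e0 : ((5 + 15 * th - 15 * th ^ 2 - 5 * th ^ 3) * (0:ℝ) ^ 4
        + (-8 - 12 * th + 48 * th ^ 2 + 12 * th ^ 3) * (0:ℝ) ^ 3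
        + (3 - 9 * th - 45 * th ^ 2 - 9 * th ^ 3) * (0:ℝ) ^ 2
        + (6 * th + 12 * th ^ 2 + 2 * th ^ 3) * (0:ℝ)) = 0 := by ring
  have e1 : ((5 + 15 * th - 15 * th ^ 2 - 5 * th ^ 3) * (1:ℝ) ^ 4
        + (-8 - 12 * th + 48 * th ^ 2 + 12 * th ^ 3) * (1:ℝ) ^ 3
        + (3 - 9 * th - 45 * th ^ 2 - 9 * th ^ 3) * (1:ℝ) ^ 2
        + (6 * th + 12 * th ^ 2 + 2 * th ^ 3) * (1:ℝ)) = 0 := by ring
  beta_reduce at key
  rw [e0, e1, zero_div, mul_zero, mul_zero, sub_zero, zero_add] at key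
  rw [← key]
  have hl : Continuous fun z : ℝ => lw th z := by
    unfold lw
    fun_prop
  have i1 : IntervalIntegrable (fun z : ℝ => lw th z * z * R z) volume 0 1 :=
    ((hl.mul continuous_id).mul hRc).intervalIntegrable _ _
  have i2 : IntervalIntegrable (fun z : ℝ => lw th z * R z) volume 0 1 :=
    (hl.mul hRc).intervalIntegrable _ _
  have i3 : IntervalIntegrable (fun z : ℝ => lw th z * z ^ 2 * R z) volume 0 1 :=
    ((hl.mul (continuous_id.pow 2)).mul hRc).intervalIntegrable _ _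
  have e : ∫ z in (0:ℝ)..1, R z * (-((4 * (5 + 15 * th - 15 * th ^ 2 - 5 * th ^ 3) * z ^ 3
        + 3 * (-8 - 12 * th + 48 * th ^ 2 + 12 * th ^ 3) * z ^ 2
        + 2 * (3 - 9 * th - 45 * th ^ 2 - 9 * th ^ 3) * z
        + (6 * th + 12 * th ^ 2 + 2 * th ^ 3)) / (20 * dth th)))
      = ∫ z in (0:ℝ)..1, (4 * (3 + 10 * th + 2 * th ^ 2) * (lw th z * z * R z)
          - (3 + 6 * th + th ^ 2) * (lw th z * R z)
          - 10 * dth th * (lw th z * z ^ 2 * R z)) / (10 * dth th) :=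
    intervalIntegral.integral_congr fun z _ => tmomb_pt th h0 (R z) z
  rw [e, intervalIntegral.integral_div,
    intervalIntegral.integral_sub ((i1.const_mul _).sub (i2.const_mul _)) (i3.const_mul _),
    intervalIntegral.integral_sub (i1.const_mul _) (i2.const_mul _),
    intervalIntegral.integral_const_mul, intervalIntegral.integral_const_mul,
    intervalIntegral.integral_const_mul]
  rfl

/-! #### section TMOMC -/

theorem tmomc_p0_d1 (th x : ℝ) :
    HasDerivAt (fun c : ℝ => kP0 th c)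
      ((dth th + 2 * (-9 * th - 3 * th ^ 2) * x + 3 * (-3 + 6 * th + 3 * th ^ 2) * x ^ 2 + 4 * (2 - th - th ^ 2) * x ^ 3) / dth th) x := by
  have hKeq : (fun c : ℝ => kP0 th c)
      = fun c => ((dth th) * c + (-9 * th - 3 * th ^ 2) * c ^ 2 + (-3 + 6 * th + 3 * th ^ 2) * c ^ 3 + (2 - th - th ^ 2) * c ^ 4) / dth th := by
    funext c
    unfold kP0 dth
    ring
  rw [hKeq]
  have h : HasDerivAt (fun c : ℝ => (dth th) * c + (-9 * th - 3 * th ^ 2) * c ^ 2 + (-3 + 6 * th + 3 * th ^ 2) * c ^ 3 + (2 - th - th ^ 2) * c ^ 4)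
      ((dth th) * 1 + (-9 * th - 3 * th ^ 2) * (2 * x) + (-3 + 6 * th + 3 * th ^ 2) * (3 * x ^ 2) + (2 - th - th ^ 2) * (4 * x ^ 3)) x :=
    (((((hasDerivAt_id' x).const_mul (dth th)).add ((momb_pow2 x).const_mul (-9 * th - 3 * th ^ 2))).add ((momb_pow3 x).const_mul (-3 + 6 * th + 3 * th ^ 2))).add ((momb_pow4 x).const_mul (2 - th - th ^ 2)))
  exact (h.div_const (dth th)).congr_deriv (by ring)

theorem tmomc_p0_d2 (th x : ℝ) :
    HasDerivAt (fun c : ℝ => (dth th + 2 * (-9 * th - 3 * th ^ 2) * c + 3 * (-3 + 6 * th + 3 * th ^ 2) * c ^ 2 + 4 * (2 - th - th ^ 2) * c ^ 3) / dth th)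
      ((2 * (-9 * th - 3 * th ^ 2) + 2 * (3 * (-3 + 6 * th + 3 * th ^ 2)) * x + 3 * (4 * (2 - th - th ^ 2)) * x ^ 2) / dth th) x := by
  have h : HasDerivAt (fun c : ℝ => dth th + 2 * (-9 * th - 3 * th ^ 2) * c + 3 * (-3 + 6 * th + 3 * th ^ 2) * c ^ 2 + 4 * (2 - th - th ^ 2) * c ^ 3)
      (0 + (2 * (-9 * th - 3 * th ^ 2)) * 1 + (3 * (-3 + 6 * th + 3 * th ^ 2)) * (2 * x) + (4 * (2 - th - th ^ 2)) * (3 * x ^ 2)) x :=
    ((((hasDerivAt_const x (dth th)).add ((hasDerivAt_id' x).const_mul (2 * (-9 * th - 3 * th ^ 2)))).add ((momb_pow2 x).const_mul (3 * (-3 + 6 * th + 3 * th ^ 2)))).add ((momb_pow3 x).const_mul (4 * (2 - th - th ^ 2))))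
  exact (h.div_const (dth th)).congr_deriv (by ring)

theorem tmomc_p1_d1 (th x : ℝ) :
    HasDerivAt (fun c : ℝ => kP1 th c)
      ((2 * (3 * th + 3 * th ^ 2) * x + 3 * (1 - 2 * th - 5 * th ^ 2) * x ^ 2 + 4 * (-1 - th + 2 * th ^ 2) * x ^ 3) / dth th) x := by
  have hKeq : (fun c : ℝ => kP1 th c)
      = fun c => ((3 * th + 3 * th ^ 2) * c ^ 2 + (1 - 2 * th - 5 * th ^ 2) * c ^ 3 + (-1 - th + 2 * th ^ 2) * c ^ 4) / dth th := by
    funext c
    unfold kP1 dth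
    ring
  rw [hKeq]
  have h : HasDerivAt (fun c : ℝ => (3 * th + 3 * th ^ 2) * c ^ 2 + (1 - 2 * th - 5 * th ^ 2) * c ^ 3 + (-1 - th + 2 * th ^ 2) * c ^ 4)
      ((3 * th + 3 * th ^ 2) * (2 * x) + (1 - 2 * th - 5 * th ^ 2) * (3 * x ^ 2) + (-1 - th + 2 * th ^ 2) * (4 * x ^ 3)) x :=
    ((((momb_pow2 x).const_mul (3 * th + 3 * th ^ 2)).add ((momb_pow3 x).const_mul (1 - 2 * th - 5 * th ^ 2))).add ((momb_pow4 x).const_mul (-1 - th + 2 * th ^ 2)))
  exact (h.div_const (dth th)).congr_deriv (by ring)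

theorem tmomc_p1_d2 (th x : ℝ) :
    HasDerivAt (fun c : ℝ => (2 * (3 * th + 3 * th ^ 2) * c + 3 * (1 - 2 * th - 5 * th ^ 2) * c ^ 2 + 4 * (-1 - th + 2 * th ^ 2) * c ^ 3) / dth th)
      ((2 * (3 * th + 3 * th ^ 2) + 2 * (3 * (1 - 2 * th - 5 * th ^ 2)) * x + 3 * (4 * (-1 - th + 2 * th ^ 2)) * x ^ 2) / dth th) x := by
  have h : HasDerivAt (fun c : ℝ => 2 * (3 * th + 3 * th ^ 2) * c + 3 * (1 - 2 * th - 5 * th ^ 2) * c ^ 2 + 4 * (-1 - th + 2 * th ^ 2) * c ^ 3)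
      ((2 * (3 * th + 3 * th ^ 2)) * 1 + (3 * (1 - 2 * th - 5 * th ^ 2)) * (2 * x) + (4 * (-1 - th + 2 * th ^ 2)) * (3 * x ^ 2)) x :=
    ((((hasDerivAt_id' x).const_mul (2 * (3 * th + 3 * th ^ 2))).add ((momb_pow2 x).const_mul (3 * (1 - 2 * th - 5 * th ^ 2)))).add ((momb_pow3 x).const_mul (4 * (-1 - th + 2 * th ^ 2))))
  exact (h.div_const (dth th)).congr_deriv (by ring)

theorem tp0_eq (th : ℝ) (h0 : 0 ≤ th) (R R1 R2 : ℝ → ℝ)
    (hR : ∀ x, HasDerivAt R (R1 x) x) (hR1 : ∀ x, HasDerivAt R1 (R2 x) x)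
    (hR2 : Continuous R2) :
    tp0 th R = R 0 + ∫ c in (0:ℝ)..1, (-(R2 c)) * kP0 th c := by
  have hD : 0 < dth th := by
    unfold dth
    nlinarith [sq_nonneg th]
  have hK2 : Continuous (fun c : ℝ => (2 * (-9 * th - 3 * th ^ 2) + 2 * (3 * (-3 + 6 * th + 3 * th ^ 2)) * c + 3 * (4 * (2 - th - th ^ 2)) * c ^ 2) / dth th) := by
    fun_prop
  have key := ibp2 R R1 R2 (fun c : ℝ => kP0 th c)
    (fun c => (dth th + 2 * (-9 * th - 3 * th ^ 2) * c + 3 * (-3 + 6 * th + 3 * th ^ 2) * c ^ 2 + 4 * (2 - th - th ^ 2) * c ^ 3) / dth th)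
    (fun c => (2 * (-9 * th - 3 * th ^ 2) + 2 * (3 * (-3 + 6 * th + 3 * th ^ 2)) * c + 3 * (4 * (2 - th - th ^ 2)) * c ^ 2) / dth th) hR hR1 hR2
    (tmomc_p0_d1 th) (tmomc_p0_d2 th) hK2 (by simp [kP0]) (by simp [kP0])
  have hRc : Continuous R := continuous_iff_continuousAt.mpr (fun x => (hR x).continuousAt)
  have hlw : Continuous (fun z : ℝ => lw th z) := by
    unfold lw
    fun_prop
  have hlin : ∫ z in (0:ℝ)..1, R z * (-((2 * (-9 * th - 3 * th ^ 2) + 2 * (3 * (-3 + 6 * th + 3 * th ^ 2)) * z + 3 * (4 * (2 - th - th ^ 2)) * z ^ 2) / dth th)) = tp0 th R := by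
    have e : ∀ z : ℝ, R z * (-((2 * (-9 * th - 3 * th ^ 2) + 2 * (3 * (-3 + 6 * th + 3 * th ^ 2)) * z + 3 * (4 * (2 - th - th ^ 2)) * z ^ 2) / dth th))
        = (6 * (3 + th) / dth th) * (lw th z * R z) - (12 * (2 + th) / dth th) * (lw th z * z * R z) := fun z => by
      unfold lw
      ring
    have i1 : IntervalIntegrable (fun z : ℝ => (6 * (3 + th) / dth th) * (lw th z * R z)) volume 0 1 :=
      (continuous_const.mul (hlw.mul hRc)).intervalIntegrable _ _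
    have i2 : IntervalIntegrable (fun z : ℝ => (12 * (2 + th) / dth th) * (lw th z * z * R z)) volume 0 1 :=
      (continuous_const.mul ((hlw.mul continuous_id).mul hRc)).intervalIntegrable _ _
    unfold tp0 tA tM1
    simp only [e]
    rw [intervalIntegral.integral_sub i1 i2, intervalIntegral.integral_const_mul,
      intervalIntegral.integral_const_mul]
    ring
  have hK10 : (dth th + 2 * (-9 * th - 3 * th ^ 2) * 0 + 3 * (-3 + 6 * th + 3 * th ^ 2) * 0 ^ 2 + 4 * (2 - th - th ^ 2) * 0 ^ 3) / dth th = 1 := by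
    have hn : dth th + 2 * (-9 * th - 3 * th ^ 2) * 0 + 3 * (-3 + 6 * th + 3 * th ^ 2) * 0 ^ 2 + 4 * (2 - th - th ^ 2) * 0 ^ 3 = dth th := by ring
    rw [hn]
    exact div_self hD.ne'
  have hK11 : (dth th + 2 * (-9 * th - 3 * th ^ 2) * 1 + 3 * (-3 + 6 * th + 3 * th ^ 2) * 1 ^ 2 + 4 * (2 - th - th ^ 2) * 1 ^ 3) / dth th = 0 := by
    have hn : dth th + 2 * (-9 * th - 3 * th ^ 2) * 1 + 3 * (-3 + 6 * th + 3 * th ^ 2) * 1 ^ 2 + 4 * (2 - th - th ^ 2) * 1 ^ 3 = 0 := by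
      unfold dth
      ring
    rw [hn]
    exact zero_div _
  rw [← hlin, key]
  show R 0 * ((dth th + 2 * (-9 * th - 3 * th ^ 2) * 0 + 3 * (-3 + 6 * th + 3 * th ^ 2) * 0 ^ 2 + 4 * (2 - th - th ^ 2) * 0 ^ 3) / dth th) - R 1 * ((dth th + 2 * (-9 * th - 3 * th ^ 2) * 1 + 3 * (-3 + 6 * th + 3 * th ^ 2) * 1 ^ 2 + 4 * (2 - th - th ^ 2) * 1 ^ 3) / dth th)
      + ∫ c in (0:ℝ)..1, (-(R2 c)) * kP0 th c
    = R 0 + ∫ c in (0:ℝ)..1, (-(R2 c)) * kP0 th c
  rw [hK10, hK11]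
  ring

theorem tp1_eq (th : ℝ) (h0 : 0 ≤ th) (R R1 R2 : ℝ → ℝ)
    (hR : ∀ x, HasDerivAt R (R1 x) x) (hR1 : ∀ x, HasDerivAt R1 (R2 x) x)
    (hR2 : Continuous R2) :
    tp1 th R = R 1 + ∫ c in (0:ℝ)..1, (-(R2 c)) * kP1 th c := by
  have hD : 0 < dth th := by
    unfold dth
    nlinarith [sq_nonneg th]
  have hK2 : Continuous (fun c : ℝ => (2 * (3 * th + 3 * th ^ 2) + 2 * (3 * (1 - 2 * th - 5 * th ^ 2)) * c + 3 * (4 * (-1 - th + 2 * th ^ 2)) * c ^ 2) / dth th) := by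
    fun_prop
  have key := ibp2 R R1 R2 (fun c : ℝ => kP1 th c)
    (fun c => (2 * (3 * th + 3 * th ^ 2) * c + 3 * (1 - 2 * th - 5 * th ^ 2) * c ^ 2 + 4 * (-1 - th + 2 * th ^ 2) * c ^ 3) / dth th)
    (fun c => (2 * (3 * th + 3 * th ^ 2) + 2 * (3 * (1 - 2 * th - 5 * th ^ 2)) * c + 3 * (4 * (-1 - th + 2 * th ^ 2)) * c ^ 2) / dth th) hR hR1 hR2
    (tmomc_p1_d1 th) (tmomc_p1_d2 th) hK2 (by simp [kP1]) (by simp [kP1])
  have hRc : Continuous R := continuous_iff_continuousAt.mpr (fun x => (hR x).continuousAt)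
  have hlw : Continuous (fun z : ℝ => lw th z) := by
    unfold lw
    fun_prop
  have hlin : ∫ z in (0:ℝ)..1, R z * (-((2 * (3 * th + 3 * th ^ 2) + 2 * (3 * (1 - 2 * th - 5 * th ^ 2)) * z + 3 * (4 * (-1 - th + 2 * th ^ 2)) * z ^ 2) / dth th)) = tp1 th R := by
    have e : ∀ z : ℝ, R z * (-((2 * (3 * th + 3 * th ^ 2) + 2 * (3 * (1 - 2 * th - 5 * th ^ 2)) * z + 3 * (4 * (-1 - th + 2 * th ^ 2)) * z ^ 2) / dth th))
        = (12 * (1 + 2 * th) / dth th) * (lw th z * z * R z) - (6 * (1 + th) / dth th) * (lw th z * R z) := fun z => by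
      unfold lw
      ring
    have i1 : IntervalIntegrable (fun z : ℝ => (12 * (1 + 2 * th) / dth th) * (lw th z * z * R z)) volume 0 1 :=
      (continuous_const.mul ((hlw.mul continuous_id).mul hRc)).intervalIntegrable _ _
    have i2 : IntervalIntegrable (fun z : ℝ => (6 * (1 + th) / dth th) * (lw th z * R z)) volume 0 1 :=
      (continuous_const.mul (hlw.mul hRc)).intervalIntegrable _ _
    unfold tp1 tA tM1
    simp only [e]
    rw [intervalIntegral.integral_sub i1 i2, intervalIntegral.integral_const_mul,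
      intervalIntegral.integral_const_mul]
    ring
  have hK10 : (2 * (3 * th + 3 * th ^ 2) * 0 + 3 * (1 - 2 * th - 5 * th ^ 2) * 0 ^ 2 + 4 * (-1 - th + 2 * th ^ 2) * 0 ^ 3) / dth th = 0 := by
    have hn : 2 * (3 * th + 3 * th ^ 2) * 0 + 3 * (1 - 2 * th - 5 * th ^ 2) * 0 ^ 2 + 4 * (-1 - th + 2 * th ^ 2) * 0 ^ 3 = 0 := by ring
    rw [hn]
    exact zero_div _
  have hK11 : (2 * (3 * th + 3 * th ^ 2) * 1 + 3 * (1 - 2 * th - 5 * th ^ 2) * 1 ^ 2 + 4 * (-1 - th + 2 * th ^ 2) * 1 ^ 3) / dth th = -1 := by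
    have hn : 2 * (3 * th + 3 * th ^ 2) * 1 + 3 * (1 - 2 * th - 5 * th ^ 2) * 1 ^ 2 + 4 * (-1 - th + 2 * th ^ 2) * 1 ^ 3 = -dth th := by
      unfold dth
      ring
    rw [hn, neg_div]
    rw [div_self hD.ne']
  rw [← hlin, key]
  show R 0 * ((2 * (3 * th + 3 * th ^ 2) * 0 + 3 * (1 - 2 * th - 5 * th ^ 2) * 0 ^ 2 + 4 * (-1 - th + 2 * th ^ 2) * 0 ^ 3) / dth th) - R 1 * ((2 * (3 * th + 3 * th ^ 2) * 1 + 3 * (1 - 2 * th - 5 * th ^ 2) * 1 ^ 2 + 4 * (-1 - th + 2 * th ^ 2) * 1 ^ 3) / dth th)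
      + ∫ c in (0:ℝ)..1, (-(R2 c)) * kP1 th c
    = R 1 + ∫ c in (0:ℝ)..1, (-(R2 c)) * kP1 th c
  rw [hK10, hK11]
  ring

/-! #### section TPROJA -/

/-- Integral over `[0,1]` of a cubic polynomial. -/
theorem tproja_int_poly (c0 c1 c2 c3 : ℝ) :
    ∫ z in (0:ℝ)..1, (c0 + c1 * z + c2 * z ^ 2 + c3 * z ^ 3)
      = c0 + c1 / 2 + c2 / 3 + c3 / 4 := by
  have hd : ∀ t ∈ Set.uIcc (0:ℝ) 1,
      HasDerivAt (fun t : ℝ => c0 * t + c1 * t ^ 2 / 2 + c2 * t ^ 3 / 3 + c3 * t ^ 4 / 4)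
        (c0 + c1 * t + c2 * t ^ 2 + c3 * t ^ 3) t := by
    intro t _
    have h1 : HasDerivAt (fun t : ℝ => c0 * t) c0 t := by
      have := (hasDerivAt_id' t).const_mul c0
      exact this.congr_deriv (by ring)
    have h2 : HasDerivAt (fun t : ℝ => c1 * t ^ 2 / 2) (c1 * t) t := by
      have := ((hasDerivAt_pow 2 t).const_mul c1).div_const 2
      exact this.congr_deriv (by norm_num; ring)
    have h3 : HasDerivAt (fun t : ℝ => c2 * t ^ 3 / 3) (c2 * t ^ 2) t := by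
      have := ((hasDerivAt_pow 3 t).const_mul c2).div_const 3
      exact this.congr_deriv (by norm_num; ring)
    have h4 : HasDerivAt (fun t : ℝ => c3 * t ^ 4 / 4) (c3 * t ^ 3) t := by
      have := ((hasDerivAt_pow 4 t).const_mul c3).div_const 4
      exact this.congr_deriv (by norm_num; ring)
    exact ((h1.add h2).add h3).add h4
  rw [intervalIntegral.integral_eq_sub_of_hasDerivAt hd
    (Continuous.intervalIntegrable (by fun_prop) _ _)]
  ring

theorem tproja_lw_continuous (th : ℝ) : Continuous (fun z : ℝ => lw th z) := by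
  unfold lw
  fun_prop

theorem tpsi_orth0 (th : ℝ) (h0 : 0 ≤ th) (R : ℝ → ℝ) (hR : Continuous R) :
    ∫ z in (0:ℝ)..1, lw th z * (R z - (tp0 th R * (1 - z) + tp1 th R * z)) = 0 := by
  have hd' : (1 + 4 * th + th ^ 2 : ℝ) ≠ 0 := ne_of_gt (by nlinarith [sq_nonneg th])
  have hlw := tproja_lw_continuous th
  have i1 : IntervalIntegrable (fun z : ℝ => lw th z * R z) volume 0 1 :=
    (hlw.mul hR).intervalIntegrable 0 1
  have hA : (∫ z in (0:ℝ)..1, lw th z * R z) = tA th R := rfl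
  have key : ∀ p0 p1 : ℝ, ∫ z in (0:ℝ)..1, lw th z * (R z - (p0 * (1 - z) + p1 * z))
      = tA th R - (th * p0 + (th * (p1 - p0) + (1 - th) * p0) / 2
        + (1 - th) * (p1 - p0) / 3 + 0 / 4) := by
    intro p0 p1
    have e : (fun z : ℝ => lw th z * (R z - (p0 * (1 - z) + p1 * z)))
        = fun z => lw th z * R z - (th * p0 + (th * (p1 - p0) + (1 - th) * p0) * z
          + (1 - th) * (p1 - p0) * z ^ 2 + 0 * z ^ 3) := by
      funext z
      unfold lw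
      ring
    rw [e, intervalIntegral.integral_sub i1 (Continuous.intervalIntegrable (by fun_prop) _ _),
      tproja_int_poly, hA]
  rw [key]
  unfold tp0 tp1 dth
  field_simp
  ring

theorem tpsi_orth1 (th : ℝ) (h0 : 0 ≤ th) (R : ℝ → ℝ) (hR : Continuous R) :
    ∫ z in (0:ℝ)..1, z * (lw th z * (R z - (tp0 th R * (1 - z) + tp1 th R * z))) = 0 := by
  have hd' : (1 + 4 * th + th ^ 2 : ℝ) ≠ 0 := ne_of_gt (by nlinarith [sq_nonneg th])
  have hlw := tproja_lw_continuous th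
  have i1 : IntervalIntegrable (fun z : ℝ => lw th z * z * R z) volume 0 1 :=
    ((hlw.mul continuous_id).mul hR).intervalIntegrable 0 1
  have hM : (∫ z in (0:ℝ)..1, lw th z * z * R z) = tM1 th R := rfl
  have key : ∀ p0 p1 : ℝ, ∫ z in (0:ℝ)..1, z * (lw th z * (R z - (p0 * (1 - z) + p1 * z)))
      = tM1 th R - (0 + th * p0 / 2 + (th * (p1 - p0) + (1 - th) * p0) / 3
        + (1 - th) * (p1 - p0) / 4) := by
    intro p0 p1
    have e : (fun z : ℝ => z * (lw th z * (R z - (p0 * (1 - z) + p1 * z))))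
        = fun z => lw th z * z * R z - (0 + th * p0 * z
          + (th * (p1 - p0) + (1 - th) * p0) * z ^ 2 + (1 - th) * (p1 - p0) * z ^ 3) := by
      funext z
      unfold lw
      ring
    rw [e, intervalIntegral.integral_sub i1 (Continuous.intervalIntegrable (by fun_prop) _ _),
      tproja_int_poly, hM]
  rw [key]
  unfold tp0 tp1 dth
  field_simp
  ring

/-! #### section TPROJB -/

/-- Integral over `[0,1]` of a cubic polynomial. -/
theorem tprojb_int_poly (c0 c1 c2 c3 : ℝ) :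
    ∫ z in (0:ℝ)..1, (c0 + c1 * z + c2 * z ^ 2 + c3 * z ^ 3) = c0 + c1 / 2 + c2 / 3 + c3 / 4 := by
  have hd : ∀ t ∈ Set.uIcc (0:ℝ) 1,
      HasDerivAt (fun t : ℝ => c0 * t + c1 * t ^ 2 / 2 + c2 * t ^ 3 / 3 + c3 * t ^ 4 / 4)
        (c0 + c1 * t + c2 * t ^ 2 + c3 * t ^ 3) t := by
    intro t _
    have h1 : HasDerivAt (fun t : ℝ => c0 * t) c0 t := by
      have := (hasDerivAt_id' t).const_mul c0
      exact this.congr_deriv (by ring)
    have h2 : HasDerivAt (fun t : ℝ => c1 * t ^ 2 / 2) (c1 * t) t := by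
      have := ((hasDerivAt_pow 2 t).const_mul c1).div_const 2
      exact this.congr_deriv (by norm_num; ring)
    have h3 : HasDerivAt (fun t : ℝ => c2 * t ^ 3 / 3) (c2 * t ^ 2) t := by
      have := ((hasDerivAt_pow 3 t).const_mul c2).div_const 3
      exact this.congr_deriv (by norm_num; ring)
    have h4 : HasDerivAt (fun t : ℝ => c3 * t ^ 4 / 4) (c3 * t ^ 3) t := by
      have := ((hasDerivAt_pow 4 t).const_mul c3).div_const 4
      exact this.congr_deriv (by norm_num; ring)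
    exact ((h1.add h2).add h3).add h4
  rw [intervalIntegral.integral_eq_sub_of_hasDerivAt hd
    (Continuous.intervalIntegrable (by fun_prop) _ _)]
  ring

/-- Pythagoras for the weight `lw th z dz` on `[0,1]`: if `R - p` is orthogonal to `1` and to
`z`, where `p z = al * (1 - z) + be * z`, then `‖R - p‖² = ⟨R - p, R⟩` and
`‖R‖² = ‖p‖² + ‖R - p‖²`, with `‖p‖²` an explicit polynomial. -/
theorem tprojb_aux (th : ℝ) (R : ℝ → ℝ) (hR : Continuous R) (al be : ℝ)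
    (h0 : ∫ z in (0:ℝ)..1, lw th z * (R z - (al * (1 - z) + be * z)) = 0)
    (h1 : ∫ z in (0:ℝ)..1, z * (lw th z * (R z - (al * (1 - z) + be * z))) = 0) :
    (∫ z in (0:ℝ)..1, lw th z * (R z - (al * (1 - z) + be * z)) ^ 2
        = ∫ z in (0:ℝ)..1, lw th z * (R z - (al * (1 - z) + be * z)) * R z) ∧
    (∫ z in (0:ℝ)..1, lw th z * (R z) ^ 2 =
        th * al ^ 2 + (2 * th * al * (be - al) + (1 - th) * al ^ 2) / 2
          + (th * (be - al) ^ 2 + 2 * (1 - th) * al * (be - al)) / 3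
          + (1 - th) * (be - al) ^ 2 / 4
        + ∫ z in (0:ℝ)..1, lw th z * (R z - (al * (1 - z) + be * z)) ^ 2) := by
  have hlw : Continuous (fun z : ℝ => lw th z) := by
    unfold lw
    fun_prop
  have i0 : IntervalIntegrable (fun z : ℝ => lw th z * (R z - (al * (1 - z) + be * z)))
      volume 0 1 := Continuous.intervalIntegrable (by fun_prop) _ _
  have i1 : IntervalIntegrable (fun z : ℝ => z * (lw th z * (R z - (al * (1 - z) + be * z))))
      volume 0 1 := Continuous.intervalIntegrable (by fun_prop) _ _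
  have iR : IntervalIntegrable
      (fun z : ℝ => lw th z * (R z - (al * (1 - z) + be * z)) * R z)
      volume 0 1 := Continuous.intervalIntegrable (by fun_prop) _ _
  have iP : IntervalIntegrable
      (fun z : ℝ => lw th z * (R z - (al * (1 - z) + be * z)) * (al * (1 - z) + be * z))
      volume 0 1 := Continuous.intervalIntegrable (by fun_prop) _ _
  have iQ : IntervalIntegrable (fun z : ℝ => lw th z * (R z - (al * (1 - z) + be * z)) ^ 2)
      volume 0 1 := Continuous.intervalIntegrable (by fun_prop) _ _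
  have iZ : IntervalIntegrable
      (fun z : ℝ => th * al ^ 2 + (2 * th * al * (be - al) + (1 - th) * al ^ 2) * z
        + (th * (be - al) ^ 2 + 2 * (1 - th) * al * (be - al)) * z ^ 2
        + (1 - th) * (be - al) ^ 2 * z ^ 3)
      volume 0 1 := Continuous.intervalIntegrable (by fun_prop) _ _
  have key0 : ∫ z in (0:ℝ)..1,
      lw th z * (R z - (al * (1 - z) + be * z)) * (al * (1 - z) + be * z) = 0 := by
    have e : (fun z : ℝ =>
          lw th z * (R z - (al * (1 - z) + be * z)) * (al * (1 - z) + be * z))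
        = fun z : ℝ => al * (lw th z * (R z - (al * (1 - z) + be * z)))
            + (be - al) * (z * (lw th z * (R z - (al * (1 - z) + be * z)))) := by
      funext z
      ring
    rw [e, intervalIntegral.integral_add (i0.const_mul al) (i1.const_mul (be - al)),
      intervalIntegral.integral_const_mul, intervalIntegral.integral_const_mul, h0, h1]
    ring
  have hA : ∫ z in (0:ℝ)..1, lw th z * (R z - (al * (1 - z) + be * z)) ^ 2
      = ∫ z in (0:ℝ)..1, lw th z * (R z - (al * (1 - z) + be * z)) * R z := by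
    have e : (fun z : ℝ => lw th z * (R z - (al * (1 - z) + be * z)) ^ 2)
        = fun z : ℝ => lw th z * (R z - (al * (1 - z) + be * z)) * R z
            - lw th z * (R z - (al * (1 - z) + be * z)) * (al * (1 - z) + be * z) := by
      funext z
      ring
    rw [e, intervalIntegral.integral_sub iR iP, key0, sub_zero]
  refine ⟨hA, ?_⟩
  have e : (fun z : ℝ => lw th z * (R z) ^ 2)
      = fun z : ℝ => ((th * al ^ 2 + (2 * th * al * (be - al) + (1 - th) * al ^ 2) * z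
          + (th * (be - al) ^ 2 + 2 * (1 - th) * al * (be - al)) * z ^ 2
          + (1 - th) * (be - al) ^ 2 * z ^ 3)
          + 2 * (lw th z * (R z - (al * (1 - z) + be * z)) * (al * (1 - z) + be * z)))
          + lw th z * (R z - (al * (1 - z) + be * z)) ^ 2 := by
    funext z
    unfold lw
    ring
  rw [e, intervalIntegral.integral_add (iZ.add (iP.const_mul 2)) iQ,
    intervalIntegral.integral_add iZ (iP.const_mul 2), intervalIntegral.integral_const_mul,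
    key0, tprojb_int_poly]
  ring

theorem tS_split (th : ℝ) (h0 : 0 ≤ th) (R : ℝ → ℝ) (hR : Continuous R) :
    tS th R * dth th = 6 * (3 + th) * (tA th R) ^ 2 - 24 * (2 + th) * tA th R * tM1 th R
        + 36 * (1 + th) * (tM1 th R) ^ 2
        + (∫ z in (0:ℝ)..1, lw th z * (R z - (tp0 th R * (1 - z) + tp1 th R * z)) ^ 2)
          * dth th := by
  have hd : 0 < dth th := by
    unfold dth
    positivity
  have h := (tprojb_aux th R hR (tp0 th R) (tp1 th R) (tpsi_orth0 th h0 R hR)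
    (tpsi_orth1 th h0 R hR)).2
  unfold tS
  rw [h]
  obtain ⟨I, hI⟩ : ∃ I : ℝ,
      I = ∫ z in (0:ℝ)..1, lw th z * (R z - (tp0 th R * (1 - z) + tp1 th R * z)) ^ 2 :=
    ⟨_, rfl⟩
  rw [← hI]
  obtain ⟨D, hD⟩ : ∃ D : ℝ, D = dth th := ⟨_, rfl⟩
  have hD0 : D ≠ 0 := by
    rw [hD]
    exact hd.ne'
  unfold tp0 tp1
  rw [← hD]
  field_simp
  rw [hD]
  unfold dth
  ring

theorem tSpsi_eq (th : ℝ) (h0 : 0 ≤ th) (R : ℝ → ℝ) (hR : Continuous R) :
    ∫ z in (0:ℝ)..1, lw th z * (R z - (tp0 th R * (1 - z) + tp1 th R * z)) ^ 2 =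
      ∫ z in (0:ℝ)..1, lw th z * (R z - (tp0 th R * (1 - z) + tp1 th R * z)) * R z :=
  (tprojb_aux th R hR (tp0 th R) (tp1 th R) (tpsi_orth0 th h0 R hR)
    (tpsi_orth1 th h0 R hR)).1

/-! #### section TWIBP -/

theorem tW_ibp (R R1 R2 φ : ℝ → ℝ)
    (hR : ∀ x, HasDerivAt R (R1 x) x) (hR1 : ∀ x, HasDerivAt R1 (R2 x) x)
    (hR2 : Continuous R2) (hφ : Continuous φ)
    (h0 : ∫ z in (0:ℝ)..1, φ z = 0) (h1 : ∫ z in (0:ℝ)..1, z * φ z = 0) :
    ∫ z in (0:ℝ)..1, φ z * R z =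
      -(∫ c in (0:ℝ)..1, (-(R2 c)) * (∫ z in (0:ℝ)..c, (c - z) * φ z)) := by
  have hf1 : Continuous fun z : ℝ => z * φ z := continuous_id.mul hφ
  have hI0 : ∀ c : ℝ, HasDerivAt (fun u => ∫ z in (0:ℝ)..u, φ z) (φ c) c := fun c =>
    intervalIntegral.integral_hasDerivAt_right (hφ.intervalIntegrable _ _)
      (hφ.stronglyMeasurableAtFilter _ _) hφ.continuousAt
  have hI1 : ∀ c : ℝ, HasDerivAt (fun u => ∫ z in (0:ℝ)..u, z * φ z) (c * φ c) c :=
    fun c => intervalIntegral.integral_hasDerivAt_right (hf1.intervalIntegrable _ _)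
      (hf1.stronglyMeasurableAtFilter _ _) hf1.continuousAt
  have hWeq : (fun c : ℝ => ∫ z in (0:ℝ)..c, (c - z) * φ z)
      = fun c => c * (∫ z in (0:ℝ)..c, φ z) - ∫ z in (0:ℝ)..c, z * φ z := by
    funext c
    have i1 : IntervalIntegrable (fun z : ℝ => c * φ z) volume 0 c :=
      (continuous_const.mul hφ : Continuous fun z : ℝ => c * φ z).intervalIntegrable _ _
    have i2 : IntervalIntegrable (fun z : ℝ => z * φ z) volume 0 c :=
      hf1.intervalIntegrable _ _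
    rw [← intervalIntegral.integral_const_mul, ← intervalIntegral.integral_sub i1 i2]
    apply intervalIntegral.integral_congr
    intro z _
    ring
  have hW : ∀ c : ℝ, HasDerivAt (fun c : ℝ => ∫ z in (0:ℝ)..c, (c - z) * φ z)
      (∫ z in (0:ℝ)..c, φ z) c := by
    intro c
    rw [hWeq]
    have h : HasDerivAt
        (fun c : ℝ => c * (∫ z in (0:ℝ)..c, φ z) - ∫ z in (0:ℝ)..c, z * φ z)
        (1 * (∫ z in (0:ℝ)..c, φ z) + c * φ c - c * φ c) c :=
      ((hasDerivAt_id' c).mul (hI0 c)).sub (hI1 c)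
    have e : 1 * (∫ z in (0:ℝ)..c, φ z) + c * φ c - c * φ c
        = ∫ z in (0:ℝ)..c, φ z := by ring
    rw [e] at h
    exact h
  have hW0 : (fun c : ℝ => ∫ z in (0:ℝ)..c, (c - z) * φ z) 0 = 0 :=
    intervalIntegral.integral_same
  have hW1 : (fun c : ℝ => ∫ z in (0:ℝ)..c, (c - z) * φ z) 1 = 0 := by
    rw [hWeq]
    simp only
    rw [h0, h1]
    ring
  have key := ibp2 R R1 R2 (fun c : ℝ => ∫ z in (0:ℝ)..c, (c - z) * φ z)
    (fun c => ∫ z in (0:ℝ)..c, φ z) (fun c => φ c) hR hR1 hR2 hW hI0 hφ hW0 hW1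
  simp only [intervalIntegral.integral_same, mul_zero, h0, sub_zero, zero_add] at key
  rw [← key, ← intervalIntegral.integral_neg]
  apply intervalIntegral.integral_congr
  intro z _
  simp only
  ring

/-! #### section TWPAIR -/

/-! ### TWPAIR: pairing with the Green kernel -/

theorem tW_pair (φ : ℝ → ℝ) (hφ : Continuous φ)
    (h0 : ∫ z in (0:ℝ)..1, φ z = 0) (h1 : ∫ z in (0:ℝ)..1, z * φ z = 0)
    (c : ℝ) (hc : c ∈ Icc (0:ℝ) 1) (u v : ℝ) :
    -(∫ z in (0:ℝ)..c, (c - z) * φ z) =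
      ∫ z in (0:ℝ)..1, (gk c z - (u * (1 - z) + v * z)) * φ z := by
  obtain ⟨hc0, hc1⟩ := hc
  have hf1 : Continuous fun z : ℝ => z * φ z := by fun_prop
  have hi0 : ∀ a b : ℝ, IntervalIntegrable φ volume a b :=
    fun a b => hφ.intervalIntegrable a b
  have hi1 : ∀ a b : ℝ, IntervalIntegrable (fun z : ℝ => z * φ z) volume a b :=
    fun a b => hf1.intervalIntegrable a b
  have hcont : Continuous fun z : ℝ => (gk c z - (u * (1 - z) + v * z)) * φ z := by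
    unfold gk
    fun_prop
  have hsplit := integral_add_adjacent_intervals (hcont.intervalIntegrable (μ := volume) 0 c)
    (hcont.intervalIntegrable (μ := volume) c 1)
  have hs0 := integral_add_adjacent_intervals (hi0 0 c) (hi0 c 1)
  have hs1 := integral_add_adjacent_intervals (hi1 0 c) (hi1 c 1)
  rw [h0] at hs0
  rw [h1] at hs1
  have hL : ∫ z in (0:ℝ)..c, (gk c z - (u * (1 - z) + v * z)) * φ z =
      (1 - c + u - v) * (∫ z in (0:ℝ)..c, z * φ z) - u * (∫ z in (0:ℝ)..c, φ z) := by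
    rw [← intervalIntegral.integral_const_mul, ← intervalIntegral.integral_const_mul,
      ← intervalIntegral.integral_sub ((hi1 0 c).const_mul _) ((hi0 0 c).const_mul _)]
    refine intervalIntegral.integral_congr (fun z hz => ?_)
    rw [uIcc_of_le hc0] at hz
    show (gk c z - (u * (1 - z) + v * z)) * φ z = _
    rw [wpair_gk_le c z hz.2]
    ring
  have hR : ∫ z in c..1, (gk c z - (u * (1 - z) + v * z)) * φ z =
      (c - u) * (∫ z in c..1, φ z) - (c - u + v) * (∫ z in c..1, z * φ z) := by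
    rw [← intervalIntegral.integral_const_mul, ← intervalIntegral.integral_const_mul,
      ← intervalIntegral.integral_sub ((hi0 c 1).const_mul _) ((hi1 c 1).const_mul _)]
    refine intervalIntegral.integral_congr (fun z hz => ?_)
    rw [uIcc_of_le hc1] at hz
    show (gk c z - (u * (1 - z) + v * z)) * φ z = _
    rw [wpair_gk_ge c z hz.1]
    ring
  have hLHS : ∫ z in (0:ℝ)..c, (c - z) * φ z =
      c * (∫ z in (0:ℝ)..c, φ z) - ∫ z in (0:ℝ)..c, z * φ z := by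
    rw [← intervalIntegral.integral_const_mul,
      ← intervalIntegral.integral_sub ((hi0 0 c).const_mul _) (hi1 0 c)]
    refine intervalIntegral.integral_congr (fun z _ => ?_)
    ring
  have e0 : ∫ z in c..1, φ z = -(∫ z in (0:ℝ)..c, φ z) := by linarith
  have e1 : ∫ z in c..1, z * φ z = -(∫ z in (0:ℝ)..c, z * φ z) := by linarith
  rw [hLHS, ← hsplit, hL, hR, e0, e1]
  ring

/-! #### section TGNORM -/

theorem tgk_norm (th : ℝ) (h0 : 0 ≤ th) (h1 : th ≤ 1) (c : ℝ) (hc : c ∈ Icc (0:ℝ) 1) :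
    ∫ z in (0:ℝ)..1, lw th z * (gk c z - tpk th c z) ^ 2 = kD th c := by
  obtain ⟨hc0, hc1⟩ := hc
  have hcont : Continuous (fun z : ℝ => lw th z * (gk c z - tpk th c z) ^ 2) := by
    unfold lw gk tpk
    fun_prop
  rw [← intervalIntegral.integral_add_adjacent_intervals (hcont.intervalIntegrable 0 c)
    (hcont.intervalIntegrable c 1)]
  have e1 : ∫ z in (0:ℝ)..c, lw th z * (gk c z - tpk th c z) ^ 2
      = ∫ z in (0:ℝ)..c, (th * (kP0 th c) ^ 2
          + (-(2 * th * kP0 th c * (1 - c + kP0 th c - kP1 th c))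
              + (1 - th) * (kP0 th c) ^ 2) * z
          + (th * (1 - c + kP0 th c - kP1 th c) ^ 2
              - 2 * (1 - th) * kP0 th c * (1 - c + kP0 th c - kP1 th c)) * z ^ 2
          + ((1 - th) * (1 - c + kP0 th c - kP1 th c) ^ 2) * z ^ 3) := by
    apply intervalIntegral.integral_congr
    intro z hz
    rw [uIcc_of_le hc0] at hz
    have hg : gk c z = z * (1 - c) := by
      unfold gk
      apply min_eq_left
      nlinarith [hz.1, hz.2]
    dsimp only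
    rw [hg]
    unfold lw tpk
    ring
  have e2 : ∫ z in c..(1:ℝ), lw th z * (gk c z - tpk th c z) ^ 2
      = ∫ z in c..(1:ℝ), (th * (c - kP0 th c) ^ 2
          + (2 * th * (c - kP0 th c) * (kP0 th c - kP1 th c - c)
              + (1 - th) * (c - kP0 th c) ^ 2) * z
          + (th * (kP0 th c - kP1 th c - c) ^ 2
              + 2 * (1 - th) * (c - kP0 th c) * (kP0 th c - kP1 th c - c)) * z ^ 2
          + ((1 - th) * (kP0 th c - kP1 th c - c) ^ 2) * z ^ 3) := by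
    apply intervalIntegral.integral_congr
    intro z hz
    rw [uIcc_of_le hc1] at hz
    have hg : gk c z = c * (1 - z) := by
      unfold gk
      apply min_eq_right
      nlinarith [hz.1, hz.2]
    dsimp only
    rw [hg]
    unfold lw tpk
    ring
  rw [e1, e2, gnorm_int_cubic, gnorm_int_cubic]
  have hd : (0:ℝ) < 1 + 4 * th + th ^ 2 := by nlinarith [sq_nonneg th]
  have hd' : (1 + 4 * th + th ^ 2 : ℝ) ≠ 0 := hd.ne'
  unfold kP0 kP1 kD dth
  field_simp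
  ring

/-! #### section TCS -/

/-! ### TCS: Cauchy-Schwarz with a nonnegative weight -/

theorem tcs_weighted (w u ψ : ℝ → ℝ) (hw : Continuous w) (hu : Continuous u)
    (hψ : Continuous ψ) (hw0 : ∀ z ∈ Icc (0:ℝ) 1, 0 ≤ w z) :
    (∫ z in (0:ℝ)..1, w z * u z * ψ z) ^ 2 ≤
      (∫ z in (0:ℝ)..1, w z * (u z) ^ 2) * (∫ z in (0:ℝ)..1, w z * (ψ z) ^ 2) := by
  have h1 : IntervalIntegrable (fun z => w z * (u z) ^ 2) volume 0 1 :=
    (by fun_prop : Continuous fun z => w z * (u z) ^ 2).intervalIntegrable _ _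
  have h2 : IntervalIntegrable (fun z => w z * u z * ψ z) volume 0 1 :=
    (by fun_prop : Continuous fun z => w z * u z * ψ z).intervalIntegrable _ _
  have h3 : IntervalIntegrable (fun z => w z * (ψ z) ^ 2) volume 0 1 :=
    (by fun_prop : Continuous fun z => w z * (ψ z) ^ 2).intervalIntegrable _ _
  have hquad : ∀ s : ℝ, 0 ≤ (∫ z in (0:ℝ)..1, w z * (ψ z) ^ 2) * (s * s)
      + (2 * ∫ z in (0:ℝ)..1, w z * u z * ψ z) * s + ∫ z in (0:ℝ)..1, w z * (u z) ^ 2 := by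
    intro s
    have hnn : 0 ≤ ∫ z in (0:ℝ)..1, w z * (u z + s * ψ z) ^ 2 := by
      apply intervalIntegral.integral_nonneg (by norm_num)
      intro z hz
      exact mul_nonneg (hw0 z hz) (sq_nonneg _)
    have hexp : ∫ z in (0:ℝ)..1, w z * (u z + s * ψ z) ^ 2
        = (∫ z in (0:ℝ)..1, w z * (ψ z) ^ 2) * (s * s)
          + (2 * ∫ z in (0:ℝ)..1, w z * u z * ψ z) * s
          + ∫ z in (0:ℝ)..1, w z * (u z) ^ 2 := by
      have e : (fun z => w z * (u z + s * ψ z) ^ 2)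
          = fun z => (s * s) * (w z * (ψ z) ^ 2)
            + ((2 * s) * (w z * u z * ψ z) + w z * (u z) ^ 2) := by
        funext z
        ring
      rw [e, intervalIntegral.integral_add (h3.const_mul _) ((h2.const_mul _).add h1),
        intervalIntegral.integral_add (h2.const_mul _) h1,
        intervalIntegral.integral_const_mul, intervalIntegral.integral_const_mul]
      ring
    rw [← hexp]
    exact hnn
  have hd := discrim_le_zero hquad
  unfold discrim at hd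
  linarith [hd]

/-! #### section TKER -/

theorem tker_dth_pos (th : ℝ) (h0 : 0 ≤ th) : 0 < dth th := by
  unfold dth
  positivity

theorem ker_signs (th : ℝ) (h0 : 0 ≤ th) (h1 : th ≤ 1) (c : ℝ) (hc : c ∈ Icc (0:ℝ) 1) :
    0 ≤ ka th c ∧ 0 ≤ kG th c ∧ 0 ≤ kP0 th c ∧ 0 ≤ kP1 th c := by
  have _ := h1
  obtain ⟨hc0, hc1⟩ := hc
  have hd1 : 0 ≤ 1 - c := by linarith
  have hd := tker_dth_pos th h0
  refine ⟨?_, ?_, ?_, ?_⟩
  · unfold ka
    have hb : 0 ≤ 1 + c + th * (2 - c) := by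
      have e1 : 0 ≤ th * (2 - c) := mul_nonneg h0 (by linarith)
      linarith
    exact div_nonneg (mul_nonneg (mul_nonneg hc0 hd1) hb) (by norm_num)
  · unfold kG
    have hb : 0 ≤ c + 3 * th * (1 + c) + 3 * th ^ 2 * (2 - c) + th ^ 3 * (1 - c) := by
      have e1 : 0 ≤ 3 * th * (1 + c) := by positivity
      have e2 : 0 ≤ 3 * th ^ 2 * (2 - c) := mul_nonneg (by positivity) (by linarith)
      have e3 : 0 ≤ th ^ 3 * (1 - c) := mul_nonneg (by positivity) hd1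
      linarith
    exact div_nonneg (mul_nonneg (mul_nonneg (pow_nonneg hc0 2) (pow_nonneg hd1 2)) hb)
      (by positivity)
  · unfold kP0
    have hb : 0 ≤ (1 + 2 * c) + th * (4 - c) + th ^ 2 * (1 - c) := by
      have e1 : 0 ≤ th * (4 - c) := mul_nonneg h0 (by linarith)
      have e2 : 0 ≤ th ^ 2 * (1 - c) := mul_nonneg (by positivity) hd1
      linarith
    exact div_nonneg (mul_nonneg (mul_nonneg hc0 (pow_nonneg hd1 2)) hb) hd.le
  · unfold kP1
    have hb : 0 ≤ c + th * (3 + c) + th ^ 2 * (3 - 2 * c) := by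
      have e1 : 0 ≤ th * (3 + c) := by positivity
      have e2 : 0 ≤ th ^ 2 * (3 - 2 * c) := mul_nonneg (by positivity) (by linarith)
      linarith
    exact div_nonneg (mul_nonneg (mul_nonneg (pow_nonneg hc0 2) hd1) hb) hd.le

theorem ker_e (th : ℝ) (h0 : 0 ≤ th) (h1 : th ≤ 1) (c : ℝ) (hc : c ∈ Icc (0:ℝ) 1) :
    (th ^ 2 + 2 * th + 3) * kD th c ≤ 30 * (2 + th) * kG th c * ka th c := by
  have _ := h1
  obtain ⟨hc0, hc1⟩ := hc
  have hd1 : 0 ≤ 1 - c := by linarith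
  have hd := tker_dth_pos th h0
  have hdne : dth th ≠ 0 := hd.ne'
  have key : 30 * (2 + th) * kG th c * ka th c - (th ^ 2 + 2 * th + 3) * kD th c =
      c ^ 3 * (1 - c) ^ 3 * (3 * c * (1 - c) + th * (6 + 4 * c + 18 * c ^ 2)
        + th ^ 2 * (25 + 56 * c - 18 * c ^ 2) + th ^ 3 * (66 - 30 * c - 6 * c ^ 2)
        + th ^ 4 * (27 - 31 * c + 9 * c ^ 2) + 2 * th ^ 5 * (1 - c)) / (12 * dth th) := by
    unfold kG ka kD
    field_simp
    ring
  have hc2 : c ^ 2 ≤ c := by nlinarith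
  have b1 : 0 ≤ 3 * c * (1 - c) := mul_nonneg (by positivity) hd1
  have b2 : 0 ≤ th * (6 + 4 * c + 18 * c ^ 2) := by positivity
  have b3 : 0 ≤ th ^ 2 * (25 + 56 * c - 18 * c ^ 2) :=
    mul_nonneg (by positivity) (by nlinarith)
  have b4 : 0 ≤ th ^ 3 * (66 - 30 * c - 6 * c ^ 2) :=
    mul_nonneg (by positivity) (by nlinarith)
  have b5 : 0 ≤ th ^ 4 * (27 - 31 * c + 9 * c ^ 2) :=
    mul_nonneg (by positivity) (by nlinarith)
  have b6 : 0 ≤ 2 * th ^ 5 * (1 - c) := mul_nonneg (by positivity) hd1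
  have hnn : 0 ≤ c ^ 3 * (1 - c) ^ 3 * (3 * c * (1 - c) + th * (6 + 4 * c + 18 * c ^ 2)
        + th ^ 2 * (25 + 56 * c - 18 * c ^ 2) + th ^ 3 * (66 - 30 * c - 6 * c ^ 2)
        + th ^ 4 * (27 - 31 * c + 9 * c ^ 2) + 2 * th ^ 5 * (1 - c)) / (12 * dth th) :=
    div_nonneg (mul_nonneg (mul_nonneg (pow_nonneg hc0 3) (pow_nonneg hd1 3)) (by linarith))
      (by positivity)
  linarith

theorem ker_c (th : ℝ) (h0 : 0 ≤ th) (h1 : th ≤ 1) (c : ℝ) (hc : c ∈ Icc (0:ℝ) 1) :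
    2 * (2 + th) * kb th c ≤ (th ^ 2 + 2 * th + 3) * ka th c := by
  obtain ⟨hc0, hc1⟩ := hc
  have hd1 : 0 ≤ 1 - c := by linarith
  have ht1 : 0 ≤ 1 - th := by linarith
  have key : (th ^ 2 + 2 * th + 3) * ka th c - 2 * (2 + th) * kb th c =
      c * (1 - c) * (1 - c) * (1 - th) *
        (3 * (1 + th) - (1 - c) * (1 - th) * (2 + th)) / 6 := by
    unfold ka kb
    ring
  have hp : (1 - c) * (1 - th) ≤ 1 := by
    have e1 : 0 ≤ c * (1 - th) := mul_nonneg hc0 ht1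
    nlinarith
  have hp2 : (1 - c) * (1 - th) * (2 + th) ≤ 1 * (2 + th) :=
    mul_le_mul_of_nonneg_right hp (by linarith)
  have hbr : 0 ≤ 3 * (1 + th) - (1 - c) * (1 - th) * (2 + th) := by linarith
  have hnn : 0 ≤ c * (1 - c) * (1 - c) * (1 - th) *
      (3 * (1 + th) - (1 - c) * (1 - th) * (2 + th)) / 6 :=
    div_nonneg (mul_nonneg (mul_nonneg (mul_nonneg (mul_nonneg hc0 hd1) hd1) ht1) hbr)
      (by norm_num)
  linarith

/-! #### section TWBND -/

theorem twbnd_cont (th c : ℝ) : Continuous (fun z : ℝ => gk c z - tpk th c z) := by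
  have hg : Continuous (fun z : ℝ => gk c z) := by
    unfold gk
    exact (continuous_id.mul continuous_const).min
      (continuous_const.mul (continuous_const.sub continuous_id))
  have hp : Continuous (fun z : ℝ => tpk th c z) := by
    unfold tpk
    fun_prop
  exact hg.sub hp

theorem twbnd_alg (q t2 k g d τ J S : ℝ) (hq : 0 < q) (ht2 : 0 ≤ t2) (hk : 0 ≤ k)
    (hg : 0 ≤ g) (hτ : 0 < τ) (hS : 0 ≤ S)
    (hd : q * d ≤ 30 * t2 * g * k) (hJ : J ^ 2 ≤ d * S) :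
    |J| ≤ k / (2 * τ) + 15 * t2 / q * τ * g * S := by
  have hx : 0 ≤ k / (2 * τ) := by positivity
  have hy : 0 ≤ 15 * t2 / q * τ * g * S := by positivity
  have hxy : 4 * (k / (2 * τ)) * (15 * t2 / q * τ * g * S) = 30 * t2 * g * k / q * S := by
    field_simp
    ring
  have hd' : d ≤ 30 * t2 * g * k / q := by
    rw [le_div_iff₀ hq]
    linarith
  have hle : d * S ≤ 30 * t2 * g * k / q * S := mul_le_mul_of_nonneg_right hd' hS
  have hsq : J ^ 2 ≤ (k / (2 * τ) + 15 * t2 / q * τ * g * S) ^ 2 := by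
    have h6 : 4 * (k / (2 * τ)) * (15 * t2 / q * τ * g * S)
        ≤ (k / (2 * τ) + 15 * t2 / q * τ * g * S) ^ 2 := by
      nlinarith [sq_nonneg (k / (2 * τ) - 15 * t2 / q * τ * g * S)]
    linarith
  exact abs_le.mpr (abs_le_of_sq_le_sq' hsq (add_nonneg hx hy))

theorem tW_bound (th : ℝ) (h0 : 0 ≤ th) (h1 : th ≤ 1) (ψ : ℝ → ℝ) (hψ : Continuous ψ)
    (ho0 : ∫ z in (0:ℝ)..1, lw th z * ψ z = 0)
    (ho1 : ∫ z in (0:ℝ)..1, z * (lw th z * ψ z) = 0)
    (c : ℝ) (hc : c ∈ Icc (0:ℝ) 1) (τ : ℝ) (hτ : 0 < τ) :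
    |∫ z in (0:ℝ)..c, (c - z) * (lw th z * ψ z)| ≤
      ka th c / (2 * τ)
        + 15 * (2 + th) / (th ^ 2 + 2 * th + 3) * τ * kG th c
          * (∫ z in (0:ℝ)..1, lw th z * (ψ z) ^ 2) := by
  have hlwc : Continuous (fun z : ℝ => lw th z) := by
    unfold lw
    fun_prop
  have hlw0 : ∀ z ∈ Icc (0:ℝ) 1, 0 ≤ lw th z := by
    intro z hz
    unfold lw
    exact add_nonneg h0 (mul_nonneg (by linarith) hz.1)
  have hφ : Continuous (fun z : ℝ => lw th z * ψ z) := hlwc.mul hψ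
  have hpair := tW_pair (fun z : ℝ => lw th z * ψ z) hφ ho0 ho1 c hc (kP0 th c) (kP1 th c)
  have hJeq : ∫ z in (0:ℝ)..1,
      (gk c z - (kP0 th c * (1 - z) + kP1 th c * z)) * (lw th z * ψ z)
      = ∫ z in (0:ℝ)..1, lw th z * (gk c z - tpk th c z) * ψ z := by
    congr 1
    funext z
    unfold tpk
    ring
  have hcs := tcs_weighted (fun z : ℝ => lw th z) (fun z : ℝ => gk c z - tpk th c z) ψ
    hlwc (twbnd_cont th c) hψ hlw0
  have hnorm := tgk_norm th h0 h1 c hc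
  have hS : 0 ≤ ∫ z in (0:ℝ)..1, lw th z * (ψ z) ^ 2 := by
    apply intervalIntegral.integral_nonneg (by norm_num)
    intro z hz
    exact mul_nonneg (hlw0 z hz) (sq_nonneg _)
  have hJ : (∫ z in (0:ℝ)..1, lw th z * (gk c z - tpk th c z) * ψ z) ^ 2 ≤
      kD th c * (∫ z in (0:ℝ)..1, lw th z * (ψ z) ^ 2) := by
    rw [← hnorm]
    exact hcs
  obtain ⟨hka, hkG, -, -⟩ := ker_signs th h0 h1 c hc
  have hq : 0 < th ^ 2 + 2 * th + 3 := by positivity
  have hfin := twbnd_alg (th ^ 2 + 2 * th + 3) (2 + th) (ka th c) (kG th c) (kD th c) τ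
    (∫ z in (0:ℝ)..1, lw th z * (gk c z - tpk th c z) * ψ z)
    (∫ z in (0:ℝ)..1, lw th z * (ψ z) ^ 2) hq (by linarith) hka hkG hτ hS
    (ker_e th h0 h1 c hc) hJ
  rw [← hJeq, ← hpair, abs_neg] at hfin
  exact hfin

/-! #### section TF4 -/

/-! ### TF4: the quadratic inequality -/

theorem tf4_W_cont (φ : ℝ → ℝ) (hφ : Continuous φ) :
    Continuous (fun c : ℝ => ∫ z in (0:ℝ)..c, (c - z) * φ z) := by
  have h1 : ∀ c : ℝ, ∫ z in (0:ℝ)..c, (c - z) * φ z =
      c * (∫ z in (0:ℝ)..c, φ z) - ∫ z in (0:ℝ)..c, z * φ z := by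
    intro c
    rw [← intervalIntegral.integral_const_mul, ← intervalIntegral.integral_sub]
    · apply intervalIntegral.integral_congr
      intro z _
      ring
    · exact (by fun_prop : Continuous fun z => c * φ z).intervalIntegrable _ _
    · exact (by fun_prop : Continuous fun z => z * φ z).intervalIntegrable _ _
  have h2 : Continuous (fun c : ℝ => ∫ z in (0:ℝ)..c, φ z) :=
    intervalIntegral.continuous_primitive
      (fun a b => hφ.intervalIntegrable a b) 0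
  have h3 : Continuous (fun c : ℝ => ∫ z in (0:ℝ)..c, z * φ z) :=
    intervalIntegral.continuous_primitive
      (fun a b => (by fun_prop : Continuous fun z => z * φ z).intervalIntegrable a b) 0
  have h4 : (fun c : ℝ => ∫ z in (0:ℝ)..c, (c - z) * φ z) =
      fun c => c * (∫ z in (0:ℝ)..c, φ z) - ∫ z in (0:ℝ)..c, z * φ z := funext h1
  rw [h4]
  exact (continuous_id.mul h2).sub h3

theorem tf4_lw_cont (th : ℝ) : Continuous (fun z : ℝ => lw th z) := by
  unfold lw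
  fun_prop

theorem tf4_ka_cont (th : ℝ) : Continuous (fun c : ℝ => ka th c) := by
  unfold ka
  fun_prop

theorem tf4_kG_cont (th : ℝ) : Continuous (fun c : ℝ => kG th c) := by
  unfold kG
  fun_prop

theorem tf4_lw_nonneg (th : ℝ) (h0 : 0 ≤ th) (h1 : th ≤ 1) (z : ℝ) (hz : z ∈ Icc (0:ℝ) 1) :
    0 ≤ lw th z := by
  unfold lw
  have h2 : 0 ≤ (1 - th) * z := mul_nonneg (by linarith) hz.1
  linarith

theorem tf4_core (th : ℝ) (h0 : 0 ≤ th) (h1 : th ≤ 1) (R R1 R2 ψ : ℝ → ℝ)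
    (hR : ∀ x, HasDerivAt R (R1 x) x) (hR1 : ∀ x, HasDerivAt R1 (R2 x) x)
    (hR2 : Continuous R2)
    (hpos : ∀ z ∈ Icc (0:ℝ) 1, 0 ≤ R z) (hcc : ∀ z ∈ Icc (0:ℝ) 1, R2 z ≤ 0)
    (hψ : Continuous ψ)
    (ho0 : ∫ z in (0:ℝ)..1, lw th z * ψ z = 0)
    (ho1 : ∫ z in (0:ℝ)..1, z * (lw th z * ψ z) = 0)
    (hSeq : ∫ z in (0:ℝ)..1, lw th z * (ψ z) ^ 2 = ∫ z in (0:ℝ)..1, lw th z * ψ z * R z) :
    (th ^ 2 + 2 * th + 3) * (∫ z in (0:ℝ)..1, lw th z * (ψ z) ^ 2) ≤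
      30 * (2 + th) * tA th R * tll th R := by
  have hlwc : Continuous (fun z : ℝ => lw th z) := tf4_lw_cont th
  have hkac : Continuous (fun c : ℝ => ka th c) := tf4_ka_cont th
  have hkGc : Continuous (fun c : ℝ => kG th c) := tf4_kG_cont th
  have hRc : Continuous R := continuous_iff_continuousAt.mpr (fun x => (hR x).continuousAt)
  have hφc : Continuous (fun z : ℝ => lw th z * ψ z) := hlwc.mul hψ
  have hS0 : 0 ≤ ∫ z in (0:ℝ)..1, lw th z * (ψ z) ^ 2 :=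
    intervalIntegral.integral_nonneg (by norm_num)
      (fun z hz => mul_nonneg (tf4_lw_nonneg th h0 h1 z hz) (sq_nonneg _))
  have hW := tW_ibp R R1 R2 (fun z : ℝ => lw th z * ψ z) hR hR1 hR2 hφc ho0 ho1
  have hWc : Continuous (fun c : ℝ => ∫ z in (0:ℝ)..c, (c - z) * (lw th z * ψ z)) :=
    tf4_W_cont (fun z : ℝ => lw th z * ψ z) hφc
  have hl := tll_eq th h0 R R1 R2 hR hR1 hR2
  have hA := tA_eq th R R1 R2 hR hR1 hR2
  have hq : 0 < th ^ 2 + 2 * th + 3 := by positivity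
  obtain ⟨q, hqdef⟩ : ∃ q : ℝ, q = th ^ 2 + 2 * th + 3 := ⟨_, rfl⟩
  obtain ⟨K, hKdef⟩ : ∃ K : ℝ, K = 15 * (2 + th) / (th ^ 2 + 2 * th + 3) := ⟨_, rfl⟩
  have hK0 : 0 < K := by
    rw [hKdef]
    positivity
  have hKq : K * q = 15 * (2 + th) := by
    rw [hKdef, hqdef]
    field_simp
  obtain ⟨S, hS⟩ : ∃ S : ℝ, S = ∫ z in (0:ℝ)..1, lw th z * (ψ z) ^ 2 := ⟨_, rfl⟩
  obtain ⟨A, hAdef⟩ : ∃ A : ℝ, A = tA th R := ⟨_, rfl⟩
  obtain ⟨l, hldef⟩ : ∃ l : ℝ, l = tll th R := ⟨_, rfl⟩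
  obtain ⟨W, hWdef⟩ : ∃ W : ℝ → ℝ,
      W = fun c : ℝ => ∫ z in (0:ℝ)..c, (c - z) * (lw th z * ψ z) := ⟨_, rfl⟩
  have hWc' : Continuous W := by rw [hWdef]; exact hWc
  rw [← hS, ← hldef, ← hAdef, ← hqdef]
  rw [← hqdef] at hq
  rw [← hS] at hS0 hSeq
  rw [← hldef] at hl
  rw [← hAdef] at hA
  have hS2 : S = ∫ c in (0:ℝ)..1, (-(R2 c)) * (-(W c)) := by
    rw [hSeq, hW, ← intervalIntegral.integral_neg]
    apply intervalIntegral.integral_congr
    intro c _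
    simp only [hWdef]
    ring
  have hR0 : 0 ≤ R 0 := hpos 0 (by simp)
  have hR1' : 0 ≤ R 1 := hpos 1 (by simp)
  have hIa : ∫ c in (0:ℝ)..1, (-(R2 c)) * ka th c ≤ A := by
    have h2 : 0 ≤ R 0 * (1 + 2 * th) / 6 := by positivity
    have h3 : 0 ≤ R 1 * (2 + th) / 6 := by positivity
    linarith [hA]
  have key : ∀ τ : ℝ, 0 < τ → S ≤ A / (2 * τ) + K * τ * l * S := by
    intro τ hτ
    have hmono : ∫ c in (0:ℝ)..1, (-(R2 c)) * (-(W c)) ≤
        ∫ c in (0:ℝ)..1, ((-(R2 c)) * ka th c) * (1 / (2 * τ))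
          + (K * τ * S) * ((-(R2 c)) * kG th c) := by
      apply intervalIntegral.integral_mono_on (by norm_num)
      · exact (by fun_prop : Continuous fun c => (-(R2 c)) * (-(W c))).intervalIntegrable _ _
      · exact (by fun_prop : Continuous fun c =>
          ((-(R2 c)) * ka th c) * (1 / (2 * τ))
            + (K * τ * S) * ((-(R2 c)) * kG th c)).intervalIntegrable _ _
      · intro c hc
        have hρ : 0 ≤ -(R2 c) := by linarith [hcc c hc]
        have hb := tW_bound th h0 h1 ψ hψ ho0 ho1 c hc τ hτ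
        rw [← hS, ← hKdef] at hb
        have hb' : -(W c) ≤ ka th c / (2 * τ) + K * τ * kG th c * S := by
          have h5 : W c = ∫ z in (0:ℝ)..c, (c - z) * (lw th z * ψ z) := by rw [hWdef]
          rw [h5]
          exact le_trans (neg_le_abs _) hb
        calc (-(R2 c)) * (-(W c))
            ≤ (-(R2 c)) * (ka th c / (2 * τ) + K * τ * kG th c * S) :=
              mul_le_mul_of_nonneg_left hb' hρ
          _ = ((-(R2 c)) * ka th c) * (1 / (2 * τ))
              + (K * τ * S) * ((-(R2 c)) * kG th c) := by ring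
    have hint : ∫ c in (0:ℝ)..1, ((-(R2 c)) * ka th c) * (1 / (2 * τ))
          + (K * τ * S) * ((-(R2 c)) * kG th c) =
        (∫ c in (0:ℝ)..1, (-(R2 c)) * ka th c) * (1 / (2 * τ))
          + (K * τ * S) * ∫ c in (0:ℝ)..1, (-(R2 c)) * kG th c := by
      rw [intervalIntegral.integral_add, intervalIntegral.integral_mul_const,
        intervalIntegral.integral_const_mul]
      · exact (by fun_prop : Continuous fun c =>
          ((-(R2 c)) * ka th c) * (1 / (2 * τ))).intervalIntegrable _ _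
      · exact (by fun_prop : Continuous fun c =>
          (K * τ * S) * ((-(R2 c)) * kG th c)).intervalIntegrable _ _
    have h6 : (∫ c in (0:ℝ)..1, (-(R2 c)) * ka th c) * (1 / (2 * τ)) ≤ A * (1 / (2 * τ)) :=
      mul_le_mul_of_nonneg_right hIa (by positivity)
    calc S = ∫ c in (0:ℝ)..1, (-(R2 c)) * (-(W c)) := hS2
      _ ≤ ∫ c in (0:ℝ)..1, ((-(R2 c)) * ka th c) * (1 / (2 * τ))
          + (K * τ * S) * ((-(R2 c)) * kG th c) := hmono
      _ = (∫ c in (0:ℝ)..1, (-(R2 c)) * ka th c) * (1 / (2 * τ))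
          + (K * τ * S) * ∫ c in (0:ℝ)..1, (-(R2 c)) * kG th c := hint
      _ = (∫ c in (0:ℝ)..1, (-(R2 c)) * ka th c) * (1 / (2 * τ)) + (K * τ * S) * l := by
          rw [← hl]
      _ ≤ A * (1 / (2 * τ)) + (K * τ * S) * l := by linarith
      _ = A / (2 * τ) + K * τ * l * S := by ring
  have hl0 : 0 ≤ l := by
    rw [hl]
    apply intervalIntegral.integral_nonneg (by norm_num)
    intro c hc
    have hρ : 0 ≤ -(R2 c) := by linarith [hcc c hc]
    exact mul_nonneg hρ (ker_signs th h0 h1 c hc).2.1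
  have hA0 : 0 ≤ A := by
    rw [hAdef]
    unfold tA
    apply intervalIntegral.integral_nonneg (by norm_num)
    intro z hz
    exact mul_nonneg (tf4_lw_nonneg th h0 h1 z hz) (hpos z hz)
  rcases eq_or_lt_of_le hl0 with hl1 | hl1
  · have hS_le : S ≤ 0 := by
      by_contra hcon
      push Not at hcon
      have hτ : 0 < (A + 1) / S := by positivity
      have h9 := key _ hτ
      rw [← hl1] at h9
      have e : A / (2 * ((A + 1) / S)) = A * S / (2 * (A + 1)) := by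
        field_simp
      rw [e] at h9
      have h10 : A * S / (2 * (A + 1)) ≤ S / 2 := by
        rw [div_le_div_iff₀ (by positivity) (by norm_num)]
        nlinarith
      linarith
    have h11 : 30 * (2 + th) * A * l = 0 := by
      rw [← hl1]
      ring
    have h12 : q * S ≤ 0 := mul_nonpos_of_nonneg_of_nonpos hq.le hS_le
    linarith
  · have hτ : 0 < 1 / (2 * K * l) := by positivity
    have h9 := key _ hτ
    have e1 : A / (2 * (1 / (2 * K * l))) = K * A * l := by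
      field_simp
    have e2 : K * (1 / (2 * K * l)) * l * S = S / 2 := by
      field_simp
    rw [e1, e2] at h9
    have h13 : S ≤ 2 * (K * A * l) := by linarith
    have h14 : q * S ≤ q * (2 * (K * A * l)) := mul_le_mul_of_nonneg_left h13 hq.le
    have h15 : q * (2 * (K * A * l)) = 30 * (2 + th) * A * l := by
      have : q * (2 * (K * A * l)) = 2 * (K * q) * A * l := by ring
      rw [this, hKq]
      ring
    linarith

theorem tF4 (th : ℝ) (h0 : 0 ≤ th) (h1 : th ≤ 1) (R R1 R2 : ℝ → ℝ)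
    (hR : ∀ x, HasDerivAt R (R1 x) x) (hR1 : ∀ x, HasDerivAt R1 (R2 x) x)
    (hR2 : Continuous R2)
    (hpos : ∀ z ∈ Icc (0:ℝ) 1, 0 ≤ R z) (hcc : ∀ z ∈ Icc (0:ℝ) 1, R2 z ≤ 0) :
    (th ^ 2 + 2 * th + 3)
        * (∫ z in (0:ℝ)..1, lw th z * (R z - (tp0 th R * (1 - z) + tp1 th R * z)) ^ 2) ≤
      30 * (2 + th) * tA th R * tll th R := by
  have hRc : Continuous R := continuous_iff_continuousAt.mpr (fun x => (hR x).continuousAt)
  exact tf4_core th h0 h1 R R1 R2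
    (fun z => R z - (tp0 th R * (1 - z) + tp1 th R * z))
    hR hR1 hR2 hpos hcc (by fun_prop) (tpsi_orth0 th h0 R hRc) (tpsi_orth1 th h0 R hRc)
    (tSpsi_eq th h0 R hRc)

/-! #### section TC -/

/-! ### TC: `N ≤ lam A` -/

theorem tc_cont_ka (th : ℝ) : Continuous (fun c : ℝ => ka th c) := by
  unfold ka
  fun_prop

theorem tc_cont_kb (th : ℝ) : Continuous (fun c : ℝ => kb th c) := by
  unfold kb
  fun_prop

theorem tC (th : ℝ) (h0 : 0 ≤ th) (h1 : th ≤ 1) (R R1 R2 : ℝ → ℝ)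
    (hR : ∀ x, HasDerivAt R (R1 x) x) (hR1 : ∀ x, HasDerivAt R1 (R2 x) x)
    (hR2 : Continuous R2)
    (hpos : ∀ z ∈ Icc (0:ℝ) 1, 0 ≤ R z) (hcc : ∀ z ∈ Icc (0:ℝ) 1, R2 z ≤ 0) :
    2 * (2 + th) * tN th R ≤ (th ^ 2 + 2 * th + 3) * tA th R := by
  have hA := tA_eq th R R1 R2 hR hR1 hR2
  have hN := tN_eq th R R1 R2 hR hR1 hR2
  have hR0 : 0 ≤ R 0 := hpos 0 (by simp)
  have hka : Continuous (fun c : ℝ => ka th c) := tc_cont_ka th
  have hkb : Continuous (fun c : ℝ => kb th c) := tc_cont_kb th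
  have hmono : ∫ c in (0:ℝ)..1, (2 * (2 + th)) * ((-(R2 c)) * kb th c) ≤
      ∫ c in (0:ℝ)..1, (th ^ 2 + 2 * th + 3) * ((-(R2 c)) * ka th c) := by
    apply intervalIntegral.integral_mono_on (by norm_num)
    · exact (by fun_prop : Continuous fun c =>
        (2 * (2 + th)) * ((-(R2 c)) * kb th c)).intervalIntegrable _ _
    · exact (by fun_prop : Continuous fun c =>
        (th ^ 2 + 2 * th + 3) * ((-(R2 c)) * ka th c)).intervalIntegrable _ _
    · intro c hc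
      have hρ : 0 ≤ -(R2 c) := by linarith [hcc c hc]
      have hk := ker_c th h0 h1 c hc
      nlinarith [mul_le_mul_of_nonneg_left hk hρ]
  rw [intervalIntegral.integral_const_mul, intervalIntegral.integral_const_mul] at hmono
  have hpoly : 0 ≤ R 0 * ((1 - th) * (th ^ 2 + 4 * th + 1)) :=
    mul_nonneg hR0 (mul_nonneg (by linarith) (by nlinarith))
  rw [hA, hN]
  obtain ⟨Ia, hIa⟩ : ∃ Ia : ℝ, Ia = ∫ c in (0:ℝ)..1, (-(R2 c)) * ka th c := ⟨_, rfl⟩
  obtain ⟨Ib, hIb⟩ : ∃ Ib : ℝ, Ib = ∫ c in (0:ℝ)..1, (-(R2 c)) * kb th c := ⟨_, rfl⟩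
  rw [← hIa, ← hIb] at hmono
  rw [← hIa, ← hIb]
  nlinarith [hmono, hpoly]

/-! #### section TEND -/

theorem tend_amgm (X A V : ℝ) (hX : 0 ≤ X) (hA : 0 ≤ A)
    (h : X + 15 * A * V ≤ 9 / 4 * A ^ 3) : 80 * X ^ 2 * V ≤ 9 * A ^ 8 := by
  by_cases hV : V ≤ 0
  · have h1 : 80 * X ^ 2 * V ≤ 0 := mul_nonpos_of_nonneg_of_nonpos (by positivity) hV
    have h2 : 0 ≤ 9 * A ^ 8 := by positivity
    linarith
  · push Not at hV
    have hU : X ≤ 9 / 4 * A ^ 3 - 15 * A * V := by linarith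
    have hU0 : 0 ≤ 9 / 4 * A ^ 3 - 15 * A * V := le_trans hX hU
    have hsq : X ^ 2 ≤ (9 / 4 * A ^ 3 - 15 * A * V) ^ 2 := pow_le_pow_left₀ hX hU 2
    have h1 : 80 * X ^ 2 * V ≤ 80 * (9 / 4 * A ^ 3 - 15 * A * V) ^ 2 * V := by
      have h6 := mul_le_mul_of_nonneg_right hsq hV.le
      linarith
    have key : 9 * A ^ 8 - 80 * (9 / 4 * A ^ 3 - 15 * A * V) ^ 2 * V
        = 18000 * (V - A ^ 2 / 20) ^ 2 * (A ^ 2 * (A ^ 2 / 5 - V)) := by ring
    have h2 : 0 ≤ A ^ 2 * (A ^ 2 / 5 - V) := by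
      have h3 : 0 ≤ A * (9 / 4 * A ^ 3 - 15 * A * V) := mul_nonneg hA hU0
      have h4 : 0 ≤ A ^ 4 := by positivity
      nlinarith [h3, h4]
    have h5 : 0 ≤ 18000 * (V - A ^ 2 / 20) ^ 2 * (A ^ 2 * (A ^ 2 / 5 - V)) :=
      mul_nonneg (by positivity) h2
    linarith

theorem tEND (th : ℝ) (h0 : 0 ≤ th) (h1 : th ≤ 1) (A M1 M2 S Sp : ℝ)
    (hA : 0 ≤ A) (hS : 0 ≤ S) (hSp : 0 ≤ Sp)
    (hp0 : 0 ≤ 6 * (3 + th) * A - 12 * (2 + th) * M1)
    (hp1 : 0 ≤ 2 * (1 + 2 * th) * M1 - (1 + th) * A)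
    (hll : 0 ≤ 4 * (3 + 10 * th + 2 * th ^ 2) * M1 - (3 + 6 * th + th ^ 2) * A
      - 10 * (1 + 4 * th + th ^ 2) * M2)
    (hSeq : S * (1 + 4 * th + th ^ 2) = 6 * (3 + th) * A ^ 2 - 24 * (2 + th) * A * M1
      + 36 * (1 + th) * M1 ^ 2 + Sp * (1 + 4 * th + th ^ 2))
    (hF4 : (th ^ 2 + 2 * th + 3) * Sp * (10 * (1 + 4 * th + th ^ 2)) ≤
      30 * (2 + th) * A * (4 * (3 + 10 * th + 2 * th ^ 2) * M1 - (3 + 6 * th + th ^ 2) * A
        - 10 * (1 + 4 * th + th ^ 2) * M2))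
    (hC : 2 * (2 + th) * (th * A + (1 - th) * M1) ≤ (th ^ 2 + 2 * th + 3) * A) :
    80 * (th * A + (1 - th) * M1) ^ 2 * S ^ 2 * (A * M2 - M1 ^ 2) ≤ 9 * A ^ 8 := by
  have _ := hll
  have hD : 0 < 1 + 4 * th + th ^ 2 := by positivity
  have hM1 : 0 ≤ M1 := by
    by_contra hneg
    push Not at hneg
    have h2 : 2 * (1 + 2 * th) * M1 < 0 := mul_neg_of_pos_of_neg (by linarith) hneg
    have h3 : 0 ≤ (1 + th) * A := mul_nonneg (by linarith) hA
    linarith
  have hN : 0 ≤ th * A + (1 - th) * M1 :=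
    add_nonneg (mul_nonneg h0 hA) (mul_nonneg (by linarith) hM1)
  have hNSp : 2 * (1 + 4 * th + th ^ 2) * ((th * A + (1 - th) * M1) * Sp) ≤
      3 * A ^ 2 * (4 * (3 + 10 * th + 2 * th ^ 2) * M1 - (3 + 6 * th + th ^ 2) * A
        - 10 * (1 + 4 * th + th ^ 2) * M2) := by
    have hc1 := mul_le_mul_of_nonneg_right hC
      (mul_nonneg hSp (by positivity : (0:ℝ) ≤ 10 * (1 + 4 * th + th ^ 2)))
    have hc2 := mul_le_mul_of_nonneg_left hF4 hA
    have h2th : (0:ℝ) < 10 * (2 + th) := by linarith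
    refine le_of_mul_le_mul_left ?_ h2th
    linarith
  have hcube : 0 ≤ (6 * (2 * (1 + 2 * th) * M1 - (1 + th) * A)
        - th * (6 * (3 + th) * A - 12 * (2 + th) * M1)) ^ 2
      * (6 * th * (2 * (1 + 2 * th) * M1 - (1 + th) * A)
        + (6 * (3 + th) * A - 12 * (2 + th) * M1)) :=
    mul_nonneg (sq_nonneg _)
      (add_nonneg (mul_nonneg (mul_nonneg (by norm_num) h0) hp1) hp0)
  have heq : 96 * (1 + 4 * th + th ^ 2) ^ 3 *
        (9 / 4 * A ^ 3 - 15 * A * (A * M2 - M1 ^ 2) - (th * A + (1 - th) * M1) * S)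
      = (6 * (2 * (1 + 2 * th) * M1 - (1 + th) * A)
          - th * (6 * (3 + th) * A - 12 * (2 + th) * M1)) ^ 2
        * (6 * th * (2 * (1 + 2 * th) * M1 - (1 + th) * A)
          + (6 * (3 + th) * A - 12 * (2 + th) * M1))
        + 48 * (1 + 4 * th + th ^ 2) ^ 2 *
          (3 * A ^ 2 * (4 * (3 + 10 * th + 2 * th ^ 2) * M1 - (3 + 6 * th + th ^ 2) * A
              - 10 * (1 + 4 * th + th ^ 2) * M2)
            - 2 * (1 + 4 * th + th ^ 2) * ((th * A + (1 - th) * M1) * Sp)) := by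
    linear_combination (-96 * (1 + 4 * th + th ^ 2) ^ 2 * (th * A + (1 - th) * M1)) * hSeq
  have hAT : (th * A + (1 - th) * M1) * S + 15 * A * (A * M2 - M1 ^ 2) ≤ 9 / 4 * A ^ 3 := by
    have h96 : (0:ℝ) < 96 * (1 + 4 * th + th ^ 2) ^ 3 := by positivity
    have hpos : 96 * (1 + 4 * th + th ^ 2) ^ 3 * 0 ≤ 96 * (1 + 4 * th + th ^ 2) ^ 3 *
        (9 / 4 * A ^ 3 - 15 * A * (A * M2 - M1 ^ 2) - (th * A + (1 - th) * M1) * S) := by
      rw [heq, mul_zero]
      have h48 : 0 ≤ 48 * (1 + 4 * th + th ^ 2) ^ 2 *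
          (3 * A ^ 2 * (4 * (3 + 10 * th + 2 * th ^ 2) * M1 - (3 + 6 * th + th ^ 2) * A
              - 10 * (1 + 4 * th + th ^ 2) * M2)
            - 2 * (1 + 4 * th + th ^ 2) * ((th * A + (1 - th) * M1) * Sp)) :=
        mul_nonneg (by positivity) (by linarith)
      linarith
    have h7 := le_of_mul_le_mul_left hpos h96
    linarith
  have hX : 0 ≤ (th * A + (1 - th) * M1) * S := mul_nonneg hN hS
  have hfin := tend_amgm ((th * A + (1 - th) * M1) * S) A (A * M2 - M1 ^ 2) hX hA hAT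
  have e1 : 80 * ((th * A + (1 - th) * M1) * S) ^ 2 * (A * M2 - M1 ^ 2)
      = 80 * (th * A + (1 - th) * M1) ^ 2 * S ^ 2 * (A * M2 - M1 ^ 2) := by ring
  rw [← e1]
  exact hfin

/-! #### section TSMOOTH -/

/-! ### TNEQ: `N = th A + (1 - th) M1` -/

theorem tN_lin (th : ℝ) (R : ℝ → ℝ) (hR : Continuous R) :
    tN th R = th * tA th R + (1 - th) * tM1 th R := by
  unfold tN tA tM1
  have hl : Continuous (fun z : ℝ => lw th z) := by
    unfold lw
    fun_prop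
  have h1 : IntervalIntegrable (fun z => lw th z * R z) volume 0 1 :=
    (hl.mul hR).intervalIntegrable 0 1
  have h2 : IntervalIntegrable (fun z => lw th z * z * R z) volume 0 1 :=
    ((hl.mul continuous_id).mul hR).intervalIntegrable 0 1
  rw [← intervalIntegral.integral_const_mul, ← intervalIntegral.integral_const_mul,
    ← intervalIntegral.integral_add (h1.const_mul _) (h2.const_mul _)]
  apply intervalIntegral.integral_congr
  intro z _
  show lw th z ^ 2 * R z = th * (lw th z * R z) + (1 - th) * (lw th z * z * R z)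
  unfold lw
  ring

/-! ### TSMOOTH: convergence of the five moments along the smoothing -/

private lemma tsmooth_lw_abs (th z : ℝ) (hz : z ∈ Icc (0:ℝ) 1) :
    |lw th z| ≤ |th| + |1 - th| := by
  unfold lw
  have h1 : |(1 - th) * z| ≤ |1 - th| := by
    rw [abs_mul, abs_of_nonneg hz.1]
    exact mul_le_of_le_one_right (abs_nonneg _) hz.2
  have h3 := abs_le.1 h1
  have h4 := neg_abs_le th
  have h5 := le_abs_self th
  exact abs_le.2 ⟨by linarith [h3.1], by linarith [h3.2]⟩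

private lemma tsmooth_mul_abs {u v U V : ℝ} (hu : |u| ≤ U) (hv : |v| ≤ V) :
    |u * v| ≤ U * V := by
  rw [abs_mul]
  exact mul_le_mul hu hv (abs_nonneg _) ((abs_nonneg _).trans hu)

theorem tmoments_tendsto (th : ℝ) (R : ℝ → ℝ) (hc : ConcaveOn ℝ (Icc (0:ℝ) 1) R)
    (hpos : ∀ z ∈ Icc (0:ℝ) 1, 0 ≤ R z) :
    Tendsto (fun n : ℕ => tA th (smooth R (1 / ((n:ℝ) + 9)))) atTop (𝓝 (tA th R)) ∧
    Tendsto (fun n : ℕ => tM1 th (smooth R (1 / ((n:ℝ) + 9)))) atTop (𝓝 (tM1 th R)) ∧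
    Tendsto (fun n : ℕ => tM2 th (smooth R (1 / ((n:ℝ) + 9)))) atTop (𝓝 (tM2 th R)) ∧
    Tendsto (fun n : ℕ => tS th (smooth R (1 / ((n:ℝ) + 9)))) atTop (𝓝 (tS th R)) ∧
    Tendsto (fun n : ℕ => tN th (smooth R (1 / ((n:ℝ) + 9)))) atTop (𝓝 (tN th R)) := by
  have hL : ∀ z ∈ Icc (0:ℝ) 1, |lw th z| ≤ |th| + |1 - th| :=
    fun z hz => tsmooth_lw_abs th z hz
  have hz1 : ∀ z ∈ Icc (0:ℝ) 1, |z| ≤ 1 := fun z hz => by
    rw [abs_of_nonneg hz.1]
    exact hz.2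
  have hr1 : ∀ r ∈ Icc (0:ℝ) (2 * R (1 / 2)), |r| ≤ 2 * R (1 / 2) := fun r hr => by
    rw [abs_of_nonneg hr.1]
    exact hr.2
  refine ⟨?_, ?_, ?_, ?_, ?_⟩
  · have h := smdct_gen R hc hpos (fun z r => lw th z * r) (by unfold lw; fun_prop)
      ((|th| + |1 - th|) * (2 * R (1 / 2)))
      (fun z hz r hr => tsmooth_mul_abs (hL z hz) (hr1 r hr))
    exact h
  · have h := smdct_gen R hc hpos (fun z r => lw th z * z * r) (by unfold lw; fun_prop)
      ((|th| + |1 - th|) * 1 * (2 * R (1 / 2)))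
      (fun z hz r hr => tsmooth_mul_abs (tsmooth_mul_abs (hL z hz) (hz1 z hz)) (hr1 r hr))
    exact h
  · have h := smdct_gen R hc hpos (fun z r => lw th z * z ^ 2 * r) (by unfold lw; fun_prop)
      ((|th| + |1 - th|) * 1 * (2 * R (1 / 2)))
      (fun z hz r hr => tsmooth_mul_abs (tsmooth_mul_abs (hL z hz) (by
        rw [abs_pow]
        exact pow_le_one₀ (abs_nonneg _) (hz1 z hz))) (hr1 r hr))
    exact h
  · have h := smdct_gen R hc hpos (fun z r => lw th z * r ^ 2) (by unfold lw; fun_prop)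
      ((|th| + |1 - th|) * (2 * R (1 / 2)) ^ 2)
      (fun z hz r hr => tsmooth_mul_abs (hL z hz) (by
        rw [abs_pow]
        exact pow_le_pow_left₀ (abs_nonneg _) (hr1 r hr) 2))
    exact h
  · have h := smdct_gen R hc hpos (fun z r => (lw th z) ^ 2 * r) (by unfold lw; fun_prop)
      ((|th| + |1 - th|) ^ 2 * (2 * R (1 / 2)))
      (fun z hz r hr => tsmooth_mul_abs (by
        rw [abs_pow]
        exact pow_le_pow_left₀ (abs_nonneg _) (hL z hz) 2) (hr1 r hr))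
    exact h

/-! ### Assembly -/

/-- The inequality for twice differentiable profiles. -/
theorem rampth_ineq (th : ℝ) (h0 : 0 ≤ th) (h1 : th ≤ 1) (R R1 R2 : ℝ → ℝ)
    (hR : ∀ x, HasDerivAt R (R1 x) x) (hR1 : ∀ x, HasDerivAt R1 (R2 x) x)
    (hR2 : Continuous R2)
    (hpos : ∀ z ∈ Icc (0:ℝ) 1, 0 ≤ R z) (hcc : ∀ z ∈ Icc (0:ℝ) 1, R2 z ≤ 0) :
    80 * (tN th R) ^ 2 * (tS th R) ^ 2 * (tA th R * tM2 th R - (tM1 th R) ^ 2)
      ≤ 9 * (tA th R) ^ 8 := by
  have hRc : Continuous R := continuous_iff_continuousAt.2 fun x => (hR x).continuousAt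
  have h01 : (0:ℝ) ≤ 1 := zero_le_one
  have hR0 : 0 ≤ R 0 := hpos 0 ⟨le_rfl, h01⟩
  have hR1' : 0 ≤ R 1 := hpos 1 ⟨h01, le_rfl⟩
  have hd : 0 < dth th := by unfold dth; positivity
  have hlw : ∀ z ∈ Icc (0:ℝ) 1, 0 ≤ lw th z := by
    intro z hz
    unfold lw
    have h2 : 0 ≤ (1 - th) * z := mul_nonneg (by linarith) hz.1
    linarith
  have hA : 0 ≤ tA th R := by
    unfold tA
    apply intervalIntegral.integral_nonneg h01
    intro z hz
    exact mul_nonneg (hlw z hz) (hpos z hz)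
  have hS : 0 ≤ tS th R := by
    unfold tS
    apply intervalIntegral.integral_nonneg h01
    intro z hz
    exact mul_nonneg (hlw z hz) (sq_nonneg _)
  have hSp : 0 ≤ ∫ z in (0:ℝ)..1,
      lw th z * (R z - (tp0 th R * (1 - z) + tp1 th R * z)) ^ 2 := by
    apply intervalIntegral.integral_nonneg h01
    intro z hz
    exact mul_nonneg (hlw z hz) (sq_nonneg _)
  have hp0' : 0 ≤ tp0 th R := by
    rw [tp0_eq th h0 R R1 R2 hR hR1 hR2]
    have : 0 ≤ ∫ c in (0:ℝ)..1, (-(R2 c)) * kP0 th c := by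
      apply intervalIntegral.integral_nonneg h01
      intro c hc
      exact mul_nonneg (neg_nonneg.2 (hcc c hc)) (ker_signs th h0 h1 c hc).2.2.1
    linarith
  have hp1' : 0 ≤ tp1 th R := by
    rw [tp1_eq th h0 R R1 R2 hR hR1 hR2]
    have : 0 ≤ ∫ c in (0:ℝ)..1, (-(R2 c)) * kP1 th c := by
      apply intervalIntegral.integral_nonneg h01
      intro c hc
      exact mul_nonneg (neg_nonneg.2 (hcc c hc)) (ker_signs th h0 h1 c hc).2.2.2
    linarith
  have hll' : 0 ≤ tll th R := by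
    rw [tll_eq th h0 R R1 R2 hR hR1 hR2]
    apply intervalIntegral.integral_nonneg h01
    intro c hc
    exact mul_nonneg (neg_nonneg.2 (hcc c hc)) (ker_signs th h0 h1 c hc).2.1
  have hp0 : 0 ≤ 6 * (3 + th) * tA th R - 12 * (2 + th) * tM1 th R := by
    have e : 6 * (3 + th) * tA th R - 12 * (2 + th) * tM1 th R = tp0 th R * dth th := by
      unfold tp0
      field_simp
    rw [e]
    exact mul_nonneg hp0' hd.le
  have hp1 : 0 ≤ 2 * (1 + 2 * th) * tM1 th R - (1 + th) * tA th R := by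
    have e : 2 * (1 + 2 * th) * tM1 th R - (1 + th) * tA th R = tp1 th R * dth th / 6 := by
      unfold tp1
      field_simp
    rw [e]
    exact div_nonneg (mul_nonneg hp1' hd.le) (by norm_num)
  have ell : 4 * (3 + 10 * th + 2 * th ^ 2) * tM1 th R - (3 + 6 * th + th ^ 2) * tA th R
      - 10 * (1 + 4 * th + th ^ 2) * tM2 th R = tll th R * (10 * dth th) := by
    unfold tll
    have hd' : (1 + 4 * th + th ^ 2) = dth th := rfl
    rw [hd']
    field_simp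
  have hll : 0 ≤ 4 * (3 + 10 * th + 2 * th ^ 2) * tM1 th R - (3 + 6 * th + th ^ 2) * tA th R
      - 10 * (1 + 4 * th + th ^ 2) * tM2 th R := by
    rw [ell]
    exact mul_nonneg hll' (by positivity)
  have hSeq := tS_split th h0 R hRc
  have hF4 := tF4 th h0 h1 R R1 R2 hR hR1 hR2 hpos hcc
  have hF4' : (th ^ 2 + 2 * th + 3)
      * (∫ z in (0:ℝ)..1, lw th z * (R z - (tp0 th R * (1 - z) + tp1 th R * z)) ^ 2)
      * (10 * (1 + 4 * th + th ^ 2)) ≤
      30 * (2 + th) * tA th R * (4 * (3 + 10 * th + 2 * th ^ 2) * tM1 th R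
        - (3 + 6 * th + th ^ 2) * tA th R - 10 * (1 + 4 * th + th ^ 2) * tM2 th R) := by
    rw [ell]
    have hd' : (1 + 4 * th + th ^ 2) = dth th := rfl
    rw [hd']
    have h10 : 0 ≤ 10 * dth th := by positivity
    have := mul_le_mul_of_nonneg_right hF4 h10
    calc (th ^ 2 + 2 * th + 3)
          * (∫ z in (0:ℝ)..1, lw th z * (R z - (tp0 th R * (1 - z) + tp1 th R * z)) ^ 2)
          * (10 * dth th) ≤ 30 * (2 + th) * tA th R * tll th R * (10 * dth th) := this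
      _ = 30 * (2 + th) * tA th R * (tll th R * (10 * dth th)) := by ring
  have hC := tC th h0 h1 R R1 R2 hR hR1 hR2 hpos hcc
  rw [tN_lin th R hRc] at hC ⊢
  exact tEND th h0 h1 (tA th R) (tM1 th R) (tM2 th R) (tS th R) _ hA hS hSp hp0 hp1 hll
    hSeq hF4' hC

/-- **The inequality for every concave profile.** -/
theorem rampth_ineq_concave (th : ℝ) (h0 : 0 ≤ th) (h1 : th ≤ 1) (R : ℝ → ℝ)
    (hc : ConcaveOn ℝ (Icc (0:ℝ) 1) R) (hpos : ∀ z ∈ Icc (0:ℝ) 1, 0 ≤ R z) :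
    80 * (tN th R) ^ 2 * (tS th R) ^ 2 * (tA th R * tM2 th R - (tM1 th R) ^ 2)
      ≤ 9 * (tA th R) ^ 8 := by
  obtain ⟨hA, hM1, hM2, hS, hN⟩ := tmoments_tendsto th R hc hpos
  have hineq : ∀ n : ℕ,
      80 * (tN th (smooth R (1 / ((n:ℝ) + 9)))) ^ 2 * (tS th (smooth R (1 / ((n:ℝ) + 9)))) ^ 2 *
        (tA th (smooth R (1 / ((n:ℝ) + 9))) * tM2 th (smooth R (1 / ((n:ℝ) + 9)))
          - (tM1 th (smooth R (1 / ((n:ℝ) + 9)))) ^ 2)
        ≤ 9 * (tA th (smooth R (1 / ((n:ℝ) + 9)))) ^ 8 := by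
    intro n
    have hn : (0:ℝ) < (n:ℝ) + 9 := by positivity
    have hh : (0:ℝ) < 1 / ((n:ℝ) + 9) := by positivity
    have hh8 : 1 / ((n:ℝ) + 9) < 1 / 8 := by
      apply one_div_lt_one_div_of_lt (by norm_num)
      have : (0:ℝ) ≤ (n:ℝ) := Nat.cast_nonneg n
      linarith
    have hh2 : 1 / ((n:ℝ) + 9) < 1 / 2 := by linarith
    have hcont := clampR_continuous R hc _ hh hh2
    obtain ⟨d1, d2, d3⟩ := smooth_deriv R _ hcont (ne_of_gt hh)
    obtain ⟨s1, _, s3⟩ := smooth_signs R hc hpos _ hh hh8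
    exact rampth_ineq th h0 h1 _ _ _ d1 d2 d3 s1 s3
  have hL : Tendsto (fun n : ℕ =>
      80 * (tN th (smooth R (1 / ((n:ℝ) + 9)))) ^ 2 * (tS th (smooth R (1 / ((n:ℝ) + 9)))) ^ 2 *
        (tA th (smooth R (1 / ((n:ℝ) + 9))) * tM2 th (smooth R (1 / ((n:ℝ) + 9)))
          - (tM1 th (smooth R (1 / ((n:ℝ) + 9)))) ^ 2)) atTop
      (𝓝 (80 * (tN th R) ^ 2 * (tS th R) ^ 2 * (tA th R * tM2 th R - (tM1 th R) ^ 2))) :=
    (((hN.pow 2).const_mul 80).mul (hS.pow 2)).mul ((hA.mul hM2).sub (hM1.pow 2))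
  have hRt : Tendsto (fun n : ℕ => 9 * (tA th (smooth R (1 / ((n:ℝ) + 9)))) ^ 8) atTop
      (𝓝 (9 * (tA th R) ^ 8)) := (hA.pow 8).const_mul 9
  exact le_of_tendsto_of_tendsto' hL hRt hineq

end Vale.Agent.Lib.P254.RampTh
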